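import Mathlib

/-! P139 part A1: contraction semigroups with a bounded perturbation, mild solutions. -/

noncomputable section

open MeasureTheory Filter Topology Set

set_option linter.unusedSectionVars false

namespace Vale.Agent.P139

/-- A strongly continuous semigroup `S` (defined for all real times) and a bounded operator `B`. -/
structure SG (Y : Type) [NormedAddCommGroup Y] [NormedSpace ℂ Y] where
  S : ℝ → Y →L[ℂ] Y
  B : Y →L[ℂ] Y
  cont : Continuous fun p : ℝ × Y => S p.1 p.2
  zero : ∀ y, S 0 y = y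
  add : ∀ s t y, S (s + t) y = S s (S t y)
  le : ∀ s, 0 ≤ s → ∀ y, ‖S s y‖ ≤ ‖y‖

variable {Y : Type} [NormedAddCommGroup Y] [NormedSpace ℂ Y] [NormedSpace ℝ Y]

/-- `W` is the mild solution with datum `y` and forcing `b`. -/
structure SG.Mild (G : SG Y) (y : Y) (b W : ℝ → Y) : Prop where
  cb : Continuous b
  cW : Continuous W
  eq : ∀ s, 0 ≤ s → W s = G.S s y + ∫ σ in (0 : ℝ)..s, G.S (s - σ) (b σ + G.B (W σ))

/-- `T` is the perturbed semigroup. -/
def SG.Flow (G : SG Y) (T : ℝ → Y →L[ℂ] Y) : Prop := ∀ y, G.Mild y 0 fun s => T s y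

theorem SG.a1_cont (G : SG Y) {P : Type} [TopologicalSpace P] {t : P → ℝ} {f : P → Y}
    (ht : Continuous t) (hf : Continuous f) : Continuous fun p => G.S (t p) (f p) :=
  G.cont.comp (ht.prodMk hf)

theorem SG.a1_int (G : SG Y) {f : ℝ → Y} (hf : Continuous f) (s a b : ℝ) :
    IntervalIntegrable (fun σ => G.S (s - σ) (f σ)) volume a b :=
  (G.a1_cont (continuous_const.sub continuous_id) hf).intervalIntegrable a b

end Vale.Agent.P139
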