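import Vale.Agent.P139.A0

/-! P139 part A1: integral operators on `AA` with a kernel vanishing at infinity are compact.
For `δ > 0` the set of `Φ η / Wt η` is within `δ` of a finite dimensional subspace `F` (finite net of the
compact image of a ball, and `0`); with `π : Y → Y ⧸ F`, `‖π (∫ f Φ)‖ = ‖∫ f π Φ‖ ≤ δ ‖f‖`. So the image of the
unit ball is within `2 δ` of a bounded subset of `F`, hence totally bounded. -/

noncomputable section

open MeasureTheory Filter Topology Set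

set_option linter.unusedSectionVars false

namespace Vale.Agent.P139

variable {Y : Type} [NormedAddCommGroup Y] [NormedSpace ℂ Y] [NormedSpace ℝ Y]
  [IsScalarTower ℝ ℂ Y] [CompleteSpace Y]

theorem a1_Wt_pos (η : E12) : 1 ≤ Wt η := le_add_of_nonneg_right (by positivity)

theorem a1_Wt_cont : Continuous Wt := continuous_const.add (continuous_norm.pow 20)

theorem a1_meas (f : AA) : AEStronglyMeasurable f volume :=
  (Lp.stronglyMeasurable f).aestronglyMeasurable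

theorem a1_wint (f : AA) : Integrable fun ξ => Wt ξ * ‖f ξ‖ := by
  refine (AA_integrable f).norm.congr (.of_forall fun ξ => ?_)
  simp only [norm_mul, Complex.norm_real, Real.norm_of_nonneg (zero_le_one.trans (a1_Wt_pos ξ))]

theorem a1_smul_le {Φ : Y} {η : E12} {C : ℝ} (hC : ‖Φ‖ ≤ C * Wt η) (c : ℂ) :
    ‖c • Φ‖ ≤ C * (Wt η * ‖c‖) := by
  rw [norm_smul, mul_comm, ← mul_assoc]
  exact mul_le_mul_of_nonneg_right hC (norm_nonneg _)

theorem a1_integrable {Φ : E12 → Y} (hΦ : Continuous Φ) {C : ℝ} (hC : ∀ η, ‖Φ η‖ ≤ C * Wt η)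
    (f : AA) : Integrable fun η => f η • Φ η :=
  ((a1_wint f).const_mul C).mono' ((a1_meas f).smul hΦ.aestronglyMeasurable)
    (.of_forall fun η => a1_smul_le (hC η) _)

theorem a1_norm_int {Φ : E12 → Y} {C : ℝ} (hC : ∀ η, ‖Φ η‖ ≤ C * Wt η) (f : AA) :
    ‖∫ η, f η • Φ η‖ ≤ C * ‖f‖ := by
  rw [AA_norm, ← integral_const_mul]
  exact norm_integral_le_of_norm_le ((a1_wint f).const_mul C)
    (.of_forall fun η => a1_smul_le (hC η) _)

theorem a1_cpt_net {Φ : E12 → Y} (hΦ : Continuous Φ)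
    (far : ∀ δ > 0, ∃ M, ∀ η, M ≤ ‖η‖ → ‖Φ η‖ ≤ δ * Wt η) {δ : ℝ} (hδ : 0 < δ) :
    ∃ t : Set Y, t.Finite ∧ ∀ η, ∃ y ∈ Submodule.span ℂ t, ‖Φ η - y‖ ≤ δ * Wt η := by
  obtain ⟨M, hM⟩ := far δ hδ
  obtain ⟨t, ht, h⟩ := Metric.totallyBounded_iff.1
    ((isCompact_closedBall (0 : E12) M).image hΦ).totallyBounded δ hδ
  refine ⟨t, ht, fun η => ?_⟩
  rcases le_total M ‖η‖ with h1 | h1
  · exact ⟨0, zero_mem _, by simpa using hM η h1⟩
  · obtain ⟨y, hy, h2⟩ := mem_iUnion₂.1 (h ⟨η, mem_closedBall_zero_iff.2 h1, rfl⟩)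
    exact ⟨y, Submodule.subset_span hy, (mem_ball_iff_norm.1 h2).le.trans
      (le_mul_of_one_le_right hδ.le (a1_Wt_pos η))⟩

theorem a1_cpt_bdd {Φ : E12 → Y} (hΦ : Continuous Φ)
    (far : ∀ δ > 0, ∃ M, ∀ η, M ≤ ‖η‖ → ‖Φ η‖ ≤ δ * Wt η) : ∃ C, 0 ≤ C ∧ ∀ η, ‖Φ η‖ ≤ C * Wt η := by
  obtain ⟨M, hM⟩ := far 1 one_pos
  obtain ⟨C, hC⟩ := (isCompact_closedBall (0 : E12) M).exists_bound_of_continuousOn hΦ.continuousOn
  refine ⟨max C 1, le_max_of_le_right zero_le_one, fun η => ?_⟩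
  rcases le_total M ‖η‖ with h1 | h1
  · exact (hM η h1).trans
      (mul_le_mul_of_nonneg_right (le_max_right _ _) (zero_le_one.trans (a1_Wt_pos η)))
  · exact ((hC η (mem_closedBall_zero_iff.2 h1)).trans (le_max_left C 1)).trans
      (le_mul_of_one_le_right (le_max_of_le_right zero_le_one) (a1_Wt_pos η))

theorem a1_cpt {Φ : E12 → Y} (hΦ : Continuous Φ)
    (far : ∀ δ > 0, ∃ M, ∀ η, M ≤ ‖η‖ → ‖Φ η‖ ≤ δ * Wt η) :
    IsCompactOperator fun f : AA => ∫ η, f η • Φ η := by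
  obtain ⟨C, hC0, hC⟩ := a1_cpt_bdd hΦ far
  have key : TotallyBounded ((fun f : AA => ∫ η, f η • Φ η) '' Metric.ball 0 1) := by
    refine Metric.totallyBounded_iff.2 fun ε hε => ?_
    obtain ⟨t, ht, h⟩ := a1_cpt_net hΦ far (δ := ε / 4) (by positivity)
    set F := Submodule.span ℂ t with hF
    have : FiniteDimensional ℂ F := FiniteDimensional.span_of_finite ℂ ht
    have : IsClosed (F : Set Y) := F.closed_of_finiteDimensional
    have : ProperSpace F := FiniteDimensional.proper ℂ F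
    obtain ⟨u, hu, h1⟩ := Metric.totallyBounded_iff.1
      ((isCompact_closedBall (0 : F) (C + ε)).image continuous_subtype_val).totallyBounded (ε / 4)
      (by positivity)
    refine ⟨u, hu, ?_⟩
    rintro _ ⟨f, hf, rfl⟩
    rw [mem_ball_zero_iff] at hf
    have h2 : ‖∫ η, f η • F.mkQL (Φ η)‖ ≤ ε / 4 * ‖f‖ := a1_norm_int (fun η => by
      obtain ⟨y, hy, h3⟩ := h η
      have e : F.mkQL (Φ η) = Submodule.Quotient.mk (Φ η - y) :=
        (Submodule.Quotient.eq F).2 (by simpa using hy)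
      rw [e]
      exact (Submodule.Quotient.norm_mk_le F _).trans h3) f
    have h4 := F.mkQL.integral_comp_comm (a1_integrable hΦ hC f)
    simp only [map_smul] at h4
    rw [h4] at h2
    obtain ⟨v, hv, h5⟩ := Submodule.Quotient.norm_mk_lt (F.mkQL (∫ η, f η • Φ η))
      (ε := ε / 4) (by positivity)
    have h6 : (∫ η, f η • Φ η) - v ∈ F := (Submodule.Quotient.eq F).1 hv.symm
    have h7 : ‖v‖ < ε / 2 := by nlinarith
    have h8 := a1_norm_int hC f
    have h9 : ‖(∫ η, f η • Φ η) - v‖ ≤ C + ε := (norm_sub_le _ _).trans (by nlinarith)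
    obtain ⟨y, hy, h10⟩ := mem_iUnion₂.1 (h1 ⟨⟨_, h6⟩, mem_closedBall_zero_iff.2 h9, rfl⟩)
    refine mem_iUnion₂.2 ⟨y, hy, mem_ball_iff_norm.2 ?_⟩
    have h11 : ‖(∫ η, f η • Φ η) - v - y‖ < ε / 4 := mem_ball_iff_norm.1 h10
    have h12 := norm_add_le ((∫ η, f η • Φ η) - v - y) v
    rw [sub_right_comm, sub_add_cancel, sub_right_comm] at h12
    beta_reduce
    linarith
  exact ⟨_, key.closure.isCompact_of_isClosed isClosed_closure,
    mem_of_superset (Metric.ball_mem_nhds 0 one_pos) fun f hf => subset_closure ⟨f, hf, rfl⟩⟩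

end Vale.Agent.P139
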