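import Vale.Agent.P139.A1.Setup
import Vale.Agent.P139.A1.Cpt

/-! P139 part A1: the plane wave forcing; bounds, and smallness at high frequency.
`far_b1`: `Sg (s - σ) = Sg s ∘ Sg (-σ)` and (compare a.e. formulas, `AA_ext`)
`Sg ν (-σ) (amp η 1 σ • tr (e^(-σ/2) η) V) = tr η (mulE ((1 - e^(-σ)) (‖η + ζ‖² - ‖η‖²)) (Gp 0 0 σ 0 V))`,
`Sg ν (-σ) (conj (amp η 1 σ) • tr (-(e^(-σ/2) η)) V) =
  tr (-η) (mulE ((1 - e^(-σ)) (‖ζ - η‖² + ‖η‖²)) (Gp (ν - conj ν) 0 σ 0 V))`; then `smoothing` with `h = 0`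
(`rnd 0 ζ = ζ`), `norm_tr`, `norm_Sg`. -/

noncomputable section

open MeasureTheory Filter Topology Set Complex
open scoped ComplexConjugate RealInnerProductSpace

namespace Vale.Agent.P139

theorem a1_far_ac : (volume : Measure E12) ≪ μW :=
  withDensity_absolutelyContinuous' a1_Wt_cont.measurable.ennreal_ofReal.aemeasurable
    (.of_forall fun ξ => (ENNReal.ofReal_pos.2 (one_pos.trans_le (a1_Wt_pos ξ))).ne')

theorem a1_far_id {ν μ c : ℂ} {η : E12} {θ : E12 → ℝ} (hθ : Measurable θ) (V : AA) {σ : ℝ}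
    (h : ∀ ξ : E12, c * exp (-ν * (-σ : ℝ) + 6 * (-σ : ℝ) - I * ((Real.exp (-σ) - 1) * ‖ξ‖ ^ 2 : ℝ)) =
      exp (I * θ (ξ - η)) * exp (μ * σ - 6 * σ)) :
    tr η (mulE θ (Gp μ 0 σ 0 V)) = Sg ν (-σ) (c • tr (Real.exp (-σ / 2) • η) V) := by
  rw [map_smul]
  refine AA_ext ?_
  have q1 := Measure.quasiMeasurePreserving_smul (volume : Measure E12) (Real.exp_pos (-σ / 2)).ne'
  have q2 := (measurePreserving_sub_right (volume : Measure E12) η).quasiMeasurePreserving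
  filter_upwards [a1_far_ac.ae_le (Lp.coeFn_smul c (Sg ν (-σ) (tr (Real.exp (-σ / 2) • η) V))),
    Sg_ae ν (-σ) (tr (Real.exp (-σ / 2) • η) V), q1.ae (tr_ae (Real.exp (-σ / 2) • η) V),
    tr_ae η (mulE θ (Gp μ 0 σ 0 V)), q2.ae (mulE_ae hθ (Gp μ 0 σ 0 V)), q2.ae (Gp_ae μ 0 σ 0 V)]
    with ξ h1 h2 h3 h4 h5 h6
  rw [h1, Pi.smul_apply, h2, h3, h4, h5, h6, smul_eq_mul, ← mul_assoc, ← mul_assoc, h, smul_sub]
  simp

theorem a1_far_tr (η : E12) (g : AA) : tr (-η) (tr η g) = g :=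
  ev_inj fun y => by
    rw [ev_tr, ev_tr, ← mul_assoc, ← exp_add, inner_neg_left]
    simp

theorem a1_far_gen {ν : ℂ} (hν : 0 ≤ ν.re) {η : E12} {u g : ℝ → AA} (hg : Continuous g)
    (h : ∀ σ, tr η (u σ) = Sg ν (-σ) (g σ)) {s : ℝ} (hs : 0 ≤ s) :
    ‖∫ σ in (0 : ℝ)..s, Sg ν (s - σ) (g σ)‖ ≤ 2 ^ 20 * Wt η * ‖∫ σ in (0 : ℝ)..s, u σ‖ := by
  have hu : Continuous u := by
    have e : u = fun σ => tr (-η) (Sg ν (-σ) (g σ)) := funext fun σ => by rw [← h, a1_far_tr]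
    rw [e]
    exact a1_cont_tr continuous_const (a1_cont_Sg ν continuous_neg hg)
  have e : ∀ σ, Sg ν (s - σ) (g σ) = ((Sg ν s).comp (tr η)) (u σ) := fun σ => by
    rw [ContinuousLinearMap.comp_apply, h, ← Sg_add, sub_eq_add_neg]
  simp only [e]
  rw [ContinuousLinearMap.intervalIntegral_comp_comm _ (hu.intervalIntegrable _ _)]
  refine (norm_Sg ν hs _).trans ((mul_le_of_le_one_left (norm_nonneg _)
    (Real.exp_le_one_iff.2 (by nlinarith))).trans (norm_tr _ _))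

theorem a1_far_Gp (μ : ℂ) (V : AA) : Continuous fun σ : ℝ => Gp μ 0 σ 0 V := by
  have h : Continuous fun σ : ℝ => ((0 : ℝ), σ, (0 : E12), V) := by fun_prop
  simpa only [Function.comp_def] using (continuous_Gp μ).comp h

namespace Hat
variable {m : ℕ} {Q : Prof m} (H : Hat Q)

theorem a1_far_amp : Continuous fun p : E12 × ℝ => amp (Q := Q) p.1 1 p.2 := by
  unfold amp
  fun_prop

theorem a1_far_norm (η : E12) (σ : ℝ) : ‖amp (Q := Q) η 1 σ‖ = Real.exp (-aa m * σ) := by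
  rw [amp, one_mul, norm_exp]
  congr 1
  simp only [sub_re, mul_re, neg_re, nu0_re, ofReal_re, ofReal_im, I_re, I_im]
  ring

theorem b1_cont : Continuous fun p : E12 × ℝ => H.b1 p.1 p.2 := by
  have h : ∀ V, Continuous fun p : E12 × ℝ => tr (Real.exp (-p.2 / 2) • p.1) V := fun V =>
    a1_cont_tr (by fun_prop) continuous_const
  exact a1_far_amp.smul (((h _).const_smul (-I)).prodMk ((h _).const_smul I))

theorem b1_le : ∃ C, 0 ≤ C ∧ ∀ η σ, 0 ≤ σ → ‖H.b1 η σ‖ ≤ C * Wt η * Real.exp (-aa m * σ) := by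
  refine ⟨2 ^ 20 * (‖H.V1‖ + ‖H.V2‖), by positivity, fun η σ hσ => ?_⟩
  have h1 : Wt (Real.exp (-σ / 2) • η) ≤ Wt η := by
    unfold Wt
    rw [norm_smul, Real.norm_of_nonneg (Real.exp_pos _).le]
    gcongr
    exact mul_le_of_le_one_left (norm_nonneg _) (Real.exp_le_one_iff.2 (by linarith))
  have h2 : ∀ V : AA, ‖V‖ ≤ ‖H.V1‖ + ‖H.V2‖ →
      ‖tr (Real.exp (-σ / 2) • η) V‖ ≤ 2 ^ 20 * (‖H.V1‖ + ‖H.V2‖) * Wt η := fun V hV => by
    refine (norm_tr _ _).trans ?_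
    rw [mul_right_comm]
    have := zero_le_one.trans (a1_Wt_pos (Real.exp (-σ / 2) • η))
    gcongr
  rw [b1, norm_smul, a1_far_norm, mul_comm]
  refine mul_le_mul_of_nonneg_right (norm_prod_le_iff.2 ⟨?_, ?_⟩) (Real.exp_pos _).le
  · rw [norm_smul, norm_neg, norm_I, one_mul]
    exact h2 _ (le_add_of_nonneg_right (norm_nonneg _))
  · rw [norm_smul, norm_I, one_mul]
    exact h2 _ ((norm_cj _).le.trans (le_add_of_nonneg_left (norm_nonneg _)))

theorem far_b1 (N : ℝ) {δ : ℝ} (hδ : 0 < δ) : ∃ M, ∀ η, M ≤ ‖η‖ → ∀ s ∈ Icc 0 N,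
    ‖∫ σ in (0 : ℝ)..s, H.G.S (s - σ) (H.b1 η σ)‖ ≤ δ * Wt η := by
  set ν := nu0 m Q.β with hν
  have hν0 : 0 ≤ ν.re := by rw [hν, nu0_re]; exact (aa_pos Q).le
  obtain ⟨M1, h1, p1, k1⟩ := smoothing (a1_far_Gp 0 H.V1) N (δ := δ / 2 ^ 20) (by positivity)
  obtain ⟨M2, h2, p2, k2⟩ := smoothing (a1_far_Gp (ν - conj ν) H.V2) N (δ := δ / 2 ^ 20)
    (by positivity)
  refine ⟨max M1 M2, fun η hη s hs => ?_⟩
  have k3 := (k1 η 0 ((le_max_left _ _).trans hη) ⟨le_rfl, p1.le⟩ s hs).1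
  have k4 := (k2 η 0 ((le_max_right _ _).trans hη) ⟨le_rfl, p2.le⟩ s hs).2
  simp only [rnd, if_true] at k3 k4
  have ha : Continuous fun σ => amp (Q := Q) η 1 σ := by
    simpa only [Function.comp_def] using a1_far_amp.comp (Continuous.prodMk_right η)
  have ht : ∀ (ζ : E12) V, Continuous fun σ : ℝ => tr (Real.exp (-σ / 2) • ζ) V := fun ζ V =>
    a1_cont_tr (by fun_prop) continuous_const
  have hw : 0 ≤ Wt η := zero_le_one.trans (a1_Wt_pos η)
  have hfin : ∀ x : ℝ, x ≤ δ / 2 ^ 20 → 2 ^ 20 * Wt η * x ≤ δ * Wt η := fun x hx =>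
    (mul_le_mul_of_nonneg_left hx (by positivity)).trans_eq (by field_simp)
  have g1 : Continuous fun σ => amp (Q := Q) η 1 σ • tr (Real.exp (-σ / 2) • η) H.V1 :=
    ha.smul (ht _ _)
  have g2 : Continuous fun σ => conj (amp (Q := Q) η 1 σ) • tr (Real.exp (-σ / 2) • -η) H.V2 :=
    (continuous_conj.comp ha).smul (ht _ _)
  have k5 := (a1_far_gen hν0 g1 (fun σ => a1_far_id (μ := 0) (η := η)
    (θ := fun ζ => (1 - Real.exp (-σ)) * (‖η + ζ‖ ^ 2 - ‖η‖ ^ 2)) (by fun_prop) H.V1 fun ξ => by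
      rw [amp, one_mul, add_sub_cancel, ← exp_add, ← exp_add]
      congr 1
      push_cast
      ring) hs.1).trans (hfin _ k3)
  have k6 := a1_far_gen hν0 g2 (fun σ => a1_far_id (μ := ν - conj ν) (η := -η)
    (θ := fun ζ => (1 - Real.exp (-σ)) * (‖ζ - η‖ ^ 2 + ‖η‖ ^ 2)) (by fun_prop) H.V2 fun ξ => by
      rw [amp, one_mul, sub_neg_eq_add, add_sub_cancel_right, ← exp_conj, ← exp_add, ← exp_add]
      congr 1
      simp only [map_sub, map_mul, map_neg, conj_ofReal, conj_I]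
      push_cast
      ring) hs.1
  rw [show Wt (-η) = Wt η by rw [Wt, norm_neg, Wt]] at k6
  replace k6 := k6.trans (hfin _ k4)
  have hb : Continuous fun σ => H.b1 η σ := by
    simpa only [Function.comp_def] using H.b1_cont.comp (Continuous.prodMk_right η)
  have hi := H.G.a1_int hb s 0 s
  refine norm_prod_le_iff.2 ⟨?_, ?_⟩
  · have e := (ContinuousLinearMap.fst ℝ AA AA).intervalIntegral_comp_comm hi
    simp only [ContinuousLinearMap.coe_fst'] at e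
    rw [← e]
    simp only [G_S, b1, Prod.smul_mk, ← smul_comm (-I), map_smul _ (-I),
      intervalIntegral.integral_smul]
    rw [norm_smul, norm_neg, norm_I, one_mul]
    exact k5
  · have e := (ContinuousLinearMap.snd ℝ AA AA).intervalIntegral_comp_comm hi
    simp only [ContinuousLinearMap.coe_snd'] at e
    rw [← e]
    simp only [G_S, b1, Prod.smul_mk, ← smul_comm I, cj_smul I, map_smul _ (conj I),
      cj_smul (conj I), intervalIntegral.integral_smul]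
    rw [norm_smul, conj_conj, norm_I, one_mul]
    simp only [cj_smul, a1_cj_tr, cj_cj, ← smul_neg]
    have hc : Continuous fun σ : ℝ => s - σ := by fun_prop
    rw [cj.intervalIntegral_comp_comm ((a1_cont_Sg (nu0 m Q.β) hc g2).intervalIntegrable _ _),
      norm_cj]
    exact k6

theorem ex_resp : ∃ W, H.Resp W := by
  obtain ⟨C, hC, h⟩ := H.b1_le
  obtain ⟨W, h1, h2⟩ := H.G.a1_ex_param H.b1_cont fun η => ⟨C * Wt η, fun σ hσ =>
    (h η σ hσ).trans (mul_le_of_le_one_right (mul_nonneg hC (zero_le_one.trans (a1_Wt_pos η)))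
      (Real.exp_le_one_iff.2 (by have := aa_pos Q; nlinarith)))⟩
  exact ⟨W, h1, fun η => (h2 η).1, fun η => (h2 η).2⟩

theorem Resp.bdd {W : E12 → ℝ → YY} (h : H.Resp W) (N : ℝ) :
    ∃ C, 0 ≤ C ∧ ∀ η s, s ≤ N → ‖W η s‖ ≤ C * Wt η := by
  obtain ⟨C, hC, hb⟩ := H.b1_le
  refine ⟨Real.exp (‖H.G.B‖ * Max.max N 0) * (Max.max N 0 * C), by positivity, fun η s hs => ?_⟩
  have h1 := (h.mild η).est' (N := Max.max N 0) (M := C * Wt η) (fun σ hσ =>
    (hb η σ hσ.1).trans (mul_le_of_le_one_right (mul_nonneg hC (zero_le_one.trans (a1_Wt_pos η)))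
      (Real.exp_le_one_iff.2 (by have := aa_pos Q; nlinarith [hσ.1])))) (Max.max s 0)
    ⟨le_max_right _ _, max_le_max_right 0 hs⟩
  rw [h.max]
  refine h1.trans_eq ?_
  rw [norm_zero, zero_add]
  ring

theorem Resp.far {W : E12 → ℝ → YY} (h : H.Resp W) (N : ℝ) {δ : ℝ} (hδ : 0 < δ) :
    ∃ M, ∀ η, M ≤ ‖η‖ → ∀ s ∈ Icc 0 N, ‖W η s‖ ≤ δ * Wt η := by
  obtain ⟨M, hM⟩ := H.far_b1 N (δ := δ / Real.exp (‖H.G.B‖ * N)) (by positivity)
  refine ⟨M, fun η hη s hs => ((h.mild η).est (fun t ht => by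
    rw [map_zero, zero_add]
    exact hM η hη t ht) s hs).trans_eq ?_⟩
  field_simp

end Hat

end Vale.Agent.P139
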