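import Vale.Agent.P139.A1.Vol2

/-! P139 part A1: the perturbed semigroup, and decay modulo a subspace for decaying forcing. -/

noncomputable section

open MeasureTheory Filter Topology Set

set_option linter.unusedSectionVars false

namespace Vale.Agent.P139

variable {Y : Type} [NormedAddCommGroup Y] [NormedSpace ℂ Y] [NormedSpace ℝ Y]
  [IsScalarTower ℝ ℂ Y] [CompleteSpace Y] {G : SG Y} {T : ℝ → Y →L[ℂ] Y}

theorem SG.a1_flow (G : SG Y) : ∃ T, G.Flow T := by
  have h1 : ∀ y, ∃ W, G.Mild y 0 W ∧ ∀ s, W s = W (max s 0) := fun y =>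
    G.a1_ex y continuous_zero (M := 0) fun s _ => by simp
  choose W hW hm using h1
  refine ⟨fun s => LinearMap.mkContinuous
    { toFun := fun y => W y s
      map_add' := fun y y' => ?_
      map_smul' := fun c y => ?_ } (Real.exp (‖G.B‖ * max s 0)) fun y => ?_, hW⟩
  · have h2 := (hW y).add (hW y')
    simp only [Pi.zero_apply, add_zero] at h2
    rw [hm, hm y, hm y']
    exact (hW (y + y')).uniq h2 (le_max_right _ _)
  · have h2 := (hW y).smul c
    simp only [Pi.zero_apply, smul_zero] at h2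
    rw [hm, hm y]
    exact (hW (c • y)).uniq h2 (le_max_right _ _)
  · have h2 := (hW y).est' (N := max s 0) (M := 0) (fun s _ => by simp) _
      ⟨le_max_right _ _, le_rfl⟩
    rw [mul_zero, add_zero, ← hm] at h2
    exact h2

theorem SG.Flow.add (h : G.Flow T) {s t : ℝ} (hs : 0 ≤ s) (ht : 0 ≤ t) (y : Y) :
    T (s + t) y = T s (T t y) := ((h y).shift ht).uniq (h (T t y)) hs

theorem SG.Flow.diff (h : G.Flow T) (y : Y) :
    G.Mild 0 (fun σ => G.B (G.S σ y)) fun s => T s y - G.S s y := by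
  have h1 : Continuous fun s => G.S s y := G.a1_cont continuous_id continuous_const
  refine ⟨G.B.continuous.comp h1, (h y).cW.sub h1, fun s hs => ?_⟩
  have h2 := (h y).eq s hs
  simp only [Pi.zero_apply, zero_add] at h2
  simp only [map_sub G.B, add_sub_cancel, map_zero, zero_add]
  rw [sub_eq_iff_eq_add']
  exact h2

theorem SG.Flow.gen (h : G.Flow T) {y z : Y} (hd : HasDerivWithinAt (fun t => T t y) z (Ici 0) 0) :
    HasDerivWithinAt (fun t => G.S t y) (z - G.B y) (Ici 0) 0 := by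
  have hc : Continuous fun σ => G.S (-σ) (G.B (T σ y)) := G.a1_cont continuous_neg (h y).cBW
  have h1 := (hc.integral_hasStrictDerivAt 0 0).hasDerivAt
  rw [neg_zero, G.zero, (h y).zero] at h1
  have h2 : HasDerivAt (fun t => G.S t (∫ σ in (0 : ℝ)..t, G.S (-σ) (G.B (T σ y)))) (G.B y) 0 := by
    rw [hasDerivAt_iff_tendsto_slope] at h1 ⊢
    have h3 := (G.cont.tendsto (0, G.B y)).comp
      ((tendsto_id'.2 (nhdsWithin_le_nhds (s := {0}ᶜ))).prodMk_nhds h1)
    simp only [Function.comp_def, G.zero, id] at h3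
    refine h3.congr fun t => ?_
    simp only [slope, intervalIntegral.integral_same, vsub_eq_sub, sub_zero, map_zero,
      ContinuousLinearMap.map_smul_of_tower]
  refine (hd.sub h2.hasDerivWithinAt).congr (fun t ht => ?_) ?_
  · have h4 := (h y).eq t ht
    simp only [Pi.zero_apply, zero_add] at h4
    rw [Pi.sub_apply, h4, ← (G.S t).intervalIntegral_comp_comm (hc.intervalIntegrable _ _)]
    simp only [← G.add, ← sub_eq_add_neg, add_sub_cancel_right]
  · rw [Pi.sub_apply, intervalIntegral.integral_same, map_zero, sub_zero, (h y).zero, G.zero]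

theorem SG.Flow.decay (h : G.Flow T) (E : Submodule ℂ Y) {C r a : ℝ} (hC : 0 ≤ C) (hr0 : 0 ≤ r)
    (hr : r < 1) (ha : 0 < a) (hd : ∀ (n : ℕ) w, ∃ e ∈ E, ‖(T 1 ^ n) w - e‖ ≤ C * r ^ n * ‖w‖)
    {ε : ℝ} (hε : 0 < ε) : ∀ᶠ N : ℕ in atTop, ∀ (b W : ℝ → Y) (M : ℝ), G.Mild 0 b W →
      (∀ σ, 0 ≤ σ → ‖b σ‖ ≤ M * Real.exp (-a * σ)) → ∃ e ∈ E, ‖W N - e‖ ≤ ε * M := by
  set θ := max r (Real.exp (-a)) with hθ
  have hθ0 : 0 < θ := lt_max_of_lt_right (Real.exp_pos _)
  have hθ1 : θ < 1 := max_lt hr (Real.exp_lt_one_iff.2 (neg_lt_zero.2 ha))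
  set D := C * Real.exp (‖G.B‖ * 1) / θ with hD
  have h1 := (tendsto_self_mul_const_pow_of_lt_one hθ0.le hθ1).const_mul D
  rw [mul_zero] at h1
  filter_upwards [h1.eventually (gt_mem_nhds hε)] with N hN b W M hW hb
  have hM : 0 ≤ M := by simpa using (norm_nonneg _).trans (hb 0 le_rfl)
  have key : ∀ n j : ℕ, ∃ e ∈ E, ‖(T 1 ^ j) (W n) - e‖ ≤ D * (n * θ ^ (n + j)) * M := by
    intro n
    induction n with
    | zero => exact fun j => ⟨0, E.zero_mem, by simp [hW.zero]⟩
    | succ n ih =>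
      intro j
      have h2 := ((hW.shift (Nat.cast_nonneg n)).sub (h (W n))).est' (N := 1)
        (M := M * θ ^ n) (fun s hs => by
          rw [Pi.zero_apply, sub_zero]
          refine (hb _ (add_nonneg hs.1 (Nat.cast_nonneg n))).trans
            (mul_le_mul_of_nonneg_left ?_ hM)
          calc Real.exp (-a * (s + n)) ≤ Real.exp (n * -a) :=
                Real.exp_le_exp.2 (by nlinarith [mul_nonneg ha.le hs.1])
            _ = Real.exp (-a) ^ n := Real.exp_nat_mul _ _
            _ ≤ θ ^ n := pow_le_pow_left₀ (Real.exp_pos _).le (le_max_right _ _) n)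
        1 ⟨zero_le_one, le_rfl⟩
      rw [sub_self, norm_zero, zero_add, one_mul, add_comm (1 : ℝ)] at h2
      obtain ⟨e, he, h3⟩ := ih (j + 1)
      obtain ⟨e', he', h4⟩ := hd j (W (n + 1) - T 1 (W n))
      refine ⟨e + e', E.add_mem he he', ?_⟩
      have e1 : (T 1 ^ j) (W (n + 1 : ℕ)) - (e + e') =
          ((T 1 ^ (j + 1)) (W n) - e) + ((T 1 ^ j) (W (n + 1) - T 1 (W n)) - e') := by
        rw [pow_succ, mul_apply_eq_comp, map_sub, Nat.cast_succ]
        abel
      rw [e1]
      refine (norm_add_le _ _).trans ((add_le_add h3 (h4.trans (mul_le_mul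
        (mul_le_mul_of_nonneg_left (pow_le_pow_left₀ hr0 (le_max_left _ (Real.exp (-a))) j) hC) h2
        (norm_nonneg _) (by positivity)))).trans_eq ?_)
      rw [hD, ← hθ]
      push_cast
      field_simp
      ring
  simpa using (key N 0).imp fun e he => ⟨he.1, he.2.trans
    (mul_le_mul_of_nonneg_right (by simpa using hN.le) hM)⟩

end Vale.Agent.P139
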