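import Vale.Agent.P139.A1.Flow

/-! P139 part A1: spectral mapping for eigenvalues modulo a closed subspace.
`lam k = log μ + 2 π i k`, `w k = ∫₀¹ e^(-lam k s) T s w ds`, `e₀ = μ⁻¹ T 1 w - w ∈ E`. For `t ≥ 0`
`T t (w k) = e^(lam k t) (w k + ∫₀ᵗ e^(-lam k s) T s e₀ ds)` (`Flow.add`, shift the integral, split
`∫ₜ^(1+t) = ∫₀¹ + ∫₁^(1+t) - ∫₀ᵗ`), so the right derivative at `0` is `lam k • w k + e₀`; `Flow.gen` and
`gen` give `w k ∈ E`. For a functional `φ` vanishing on `E` the continuous function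
`s ↦ φ (e^(-lam 0 s) T s w)` has vanishing Fourier coefficients on `[0, 1]` (`hasSum_sq_fourierCoeffOn`), so
vanishes at `0`; Hahn-Banach (e.g. `SeparatingDual` for the quotient `Y ⧸ E`). -/

noncomputable section

open MeasureTheory Filter Topology Set

set_option linter.unusedSectionVars false

namespace Vale.Agent.P139

variable {Y : Type} [NormedAddCommGroup Y] [NormedSpace ℂ Y] [NormedSpace ℝ Y]
  [IsScalarTower ℝ ℂ Y] [CompleteSpace Y] {G : SG Y} {T : ℝ → Y →L[ℂ] Y}

open Complex in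
theorem a1_four_zero {ψ : ℝ → ℂ} (hψ : Continuous ψ)
    (h : ∀ k : ℤ, ∫ s in (0 : ℝ)..1, exp (-(2 * Real.pi * I * k) * s) * ψ s = 0) : ψ 0 = 0 := by
  have hn : Continuous fun x => ‖ψ x‖ ^ 2 := hψ.norm.pow 2
  have h1 := hasSum_sq_fourierCoeffOn (f := ψ) zero_lt_one
    ((memLp_two_iff_integrable_sq_norm hψ.aestronglyMeasurable).2 (hn.intervalIntegrable 0 1).1)
  have h2 : ∀ k : ℤ, fourierCoeffOn zero_lt_one ψ k = 0 := fun k => by
    rw [fourierCoeffOn_eq_integral, smul_eq_zero]
    refine Or.inr (Eq.trans ?_ (h k))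
    refine intervalIntegral.integral_congr fun s _ => ?_
    rw [fourier_coe_apply, smul_eq_mul]
    congr 2
    push_cast
    ring
  simp only [h2, norm_zero, ne_eq, OfNat.ofNat_ne_zero, not_false_eq_true, zero_pow, sub_zero,
    inv_one, one_smul] at h1
  by_contra h0
  exact (intervalIntegral.integral_pos zero_lt_one hn.continuousOn (fun x _ => by positivity)
    ⟨0, left_mem_Icc.2 zero_le_one, by positivity⟩).ne (hasSum_zero.unique h1)

theorem SG.Flow.a1_four_cont (h : G.Flow T) (lam : ℂ) (w : Y) :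
    Continuous fun s : ℝ => Complex.exp (-lam * s) • T s w :=
  Continuous.smul (by fun_prop) (h w).cW

theorem SG.Flow.a1_four_id (h : G.Flow T) (lam : ℂ) (w : Y) {t : ℝ} (ht : 0 ≤ t) :
    T t (∫ s in (0 : ℝ)..1, Complex.exp (-lam * s) • T s w) = Complex.exp (lam * t) •
      ((∫ s in (0 : ℝ)..1, Complex.exp (-lam * s) • T s w) +
        ∫ s in (0 : ℝ)..t, Complex.exp (-lam * s) • T s (Complex.exp (-lam) • T 1 w - w)) := by
  have hc := h.a1_four_cont lam w
  have hi := hc.intervalIntegrable (μ := volume)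
  have h1 := intervalIntegral.integral_comp_add_right (a := 0) (b := 1)
    (fun s : ℝ => Complex.exp (-lam * s) • T s w) t
  have h2 := intervalIntegral.integral_comp_add_right (a := 0) (b := t)
    (fun s : ℝ => Complex.exp (-lam * s) • T s w) 1
  rw [zero_add] at h1 h2
  have h3 : ∫ s in (0 : ℝ)..t, Complex.exp (-lam * s) • T s (Complex.exp (-lam) • T 1 w - w) =
      (∫ s in (0 : ℝ)..t, Complex.exp (-lam * (s + 1 : ℝ)) • T (s + 1) w) -
        ∫ s in (0 : ℝ)..t, Complex.exp (-lam * s) • T s w := by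
    have hc' : Continuous fun s : ℝ => Complex.exp (-lam * (s + 1 : ℝ)) • T (s + 1) w :=
      hc.comp (continuous_add_const 1)
    rw [← intervalIntegral.integral_sub (hc'.intervalIntegrable _ _) (hi _ _)]
    refine intervalIntegral.integral_congr fun s hs => ?_
    rw [uIcc_of_le ht] at hs
    rw [map_sub, map_smul, smul_sub, smul_smul, ← h.add hs.1 zero_le_one, ← Complex.exp_add]
    congr 3
    push_cast
    ring
  rw [h3, h2, add_sub, intervalIntegral.integral_add_adjacent_intervals (hi _ _) (hi _ _),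
    intervalIntegral.integral_interval_sub_left (hi _ _) (hi _ _), add_comm t 1, ← h1,
    ← intervalIntegral.integral_smul, ← (T t).intervalIntegral_comp_comm (hi _ _)]
  refine intervalIntegral.integral_congr fun s hs => ?_
  rw [uIcc_of_le zero_le_one] at hs
  rw [map_smul, smul_smul, ← h.add ht hs.1, ← Complex.exp_add, add_comm t s]
  congr 2
  push_cast
  ring

theorem SG.Flow.a1_four_der (h : G.Flow T) (lam : ℂ) (w : Y) :
    HasDerivWithinAt (fun t => T t (∫ s in (0 : ℝ)..1, Complex.exp (-lam * s) • T s w))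
      (lam • (∫ s in (0 : ℝ)..1, Complex.exp (-lam * s) • T s w) +
        (Complex.exp (-lam) • T 1 w - w)) (Ici 0) 0 := by
  have h1 : HasDerivAt (fun t : ℝ => Complex.exp (lam * t)) lam 0 := by
    simpa using (((hasDerivAt_id (0 : ℝ)).ofReal_comp).const_mul lam).cexp
  have h2 := (((h.a1_four_cont lam (Complex.exp (-lam) • T 1 w - w)).integral_hasStrictDerivAt
    0 0).hasDerivAt.const_add (∫ s in (0 : ℝ)..1, Complex.exp (-lam * s) • T s w))
  have h3 := h1.smul h2
  simp only [Complex.ofReal_zero, mul_zero, Complex.exp_zero, one_smul,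
    intervalIntegral.integral_same, add_zero, (h _).zero] at h3
  rw [add_comm]
  exact h3.hasDerivWithinAt.congr (fun t ht => h.a1_four_id lam w ht) (h.a1_four_id lam w le_rfl)

theorem SG.Flow.ms (h : G.Flow T) (E : Submodule ℂ Y) (hE : IsClosed (E : Set Y))
    (gen : ∀ lam : ℂ, 0 ≤ lam.re → ∀ w, ∀ e ∈ E,
      HasDerivWithinAt (fun t => G.S t w) (lam • w + e - G.B w) (Ici 0) 0 → w ∈ E)
    {μ : ℂ} (hμ : 1 ≤ ‖μ‖) {w : Y} (hw : T 1 w - μ • w ∈ E) : w ∈ E := by
  have hμ0 : μ ≠ 0 := norm_pos_iff.1 (one_pos.trans_le hμ)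
  have h1 : ∀ k : ℤ, (∫ s in (0 : ℝ)..1,
      Complex.exp (-(Complex.log μ + 2 * Real.pi * Complex.I * k) * s) • T s w) ∈ E := fun k => by
    refine gen _ ?_ _ _ ?_ (h.gen (h.a1_four_der _ w))
    · simpa [Complex.log_re] using Real.log_nonneg hμ
    · have h2 := E.smul_mem μ⁻¹ hw
      rw [smul_sub, inv_smul_smul₀ hμ0] at h2
      rwa [Complex.exp_neg, Complex.exp_add, Complex.exp_log hμ0, mul_comm _ (k : ℂ),
        Complex.exp_int_mul_two_pi_mul_I, mul_one]
  by_contra hn
  obtain ⟨φ, hφ⟩ := SeparatingDual.exists_ne_zero (R := ℂ) (x := E.mkQL w)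
    fun e => hn ((Submodule.Quotient.mk_eq_zero E).1 e)
  have hc := h.a1_four_cont (Complex.log μ) w
  have h3 := a1_four_zero (ψ := fun s => (φ.comp E.mkQL) (Complex.exp (-Complex.log μ * s) • T s w))
    ((φ.comp E.mkQL).continuous.comp hc) fun k => by
      have h4 : (φ.comp E.mkQL) _ = 0 :=
        (congrArg φ ((Submodule.Quotient.mk_eq_zero E).2 (h1 k))).trans φ.map_zero
      rw [← (φ.comp E.mkQL).intervalIntegral_comp_comm
        ((h.a1_four_cont _ w).intervalIntegrable _ _)] at h4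
      refine Eq.trans (intervalIntegral.integral_congr fun s _ => ?_) h4
      rw [map_smul, map_smul, smul_eq_mul, smul_eq_mul, ← mul_assoc, ← Complex.exp_add]
      congr 2
      ring
  simp only [Complex.ofReal_zero, mul_zero, Complex.exp_zero, one_smul, (h w).zero] at h3
  exact hφ h3

end Vale.Agent.P139
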