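import Vale.Agent.P139.A1.Setup

/-! P139 part A1: the symmetry modes are invariant; mode stability for the generator.
`gen`: apply `ev · y` (`ex_evL`) to both components, compare with `hasDerivAt_ev_Sg` (uniqueness of right
derivatives), use `MS` with `ef = - ev e.1`, `eg = - ev e.2`, then `ev_inj`. -/

noncomputable section

open MeasureTheory Filter Topology Set Complex
open scoped ComplexConjugate RealInnerProductSpace

namespace Vale.Agent.P139

theorem a1_ev_add (f g : AA) (y : E12) : ev (f + g) y = ev f y + ev g y := by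
  obtain ⟨T, hT⟩ := ex_evL y
  rw [← hT, ← hT, ← hT, map_add]

theorem a1_ev_sub (f g : AA) (y : E12) : ev (f - g) y = ev f y - ev g y := by
  obtain ⟨T, hT⟩ := ex_evL y
  rw [← hT, ← hT, ← hT, map_sub]

theorem a1_ev_smul (c : ℂ) (g : AA) (y : E12) : ev (c • g) y = c * ev g y := by
  obtain ⟨T, hT⟩ := ex_evL y
  rw [← hT, ← hT, map_smul, smul_eq_mul]

theorem a1_ev_sum (g : Fin 12 → AA) (y : E12) : ev (∑ j, g j) y = ∑ j, ev (g j) y := by
  obtain ⟨T, hT⟩ := ex_evL y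
  simp only [← hT, map_sum]

/-- `dg` as a real linear map. -/
def dgL : AA →L[ℝ] YY := (ContinuousLinearMap.id ℝ AA).prod cj

theorem dgL_apply (z : AA) : dgL z = dg z := rfl

theorem a1_dg_smul (c : ℝ) (z : AA) : dg (c • z) = (c : ℂ) • dg z := by
  rw [← dgL_apply, map_smul, dgL_apply]
  exact (algebraMap_smul ℂ c (dg z)).symm

namespace Hat
variable {m : ℕ} {Q : Prof m} (H : Hat Q)

theorem a1_gen_dg {T : ℝ → YY →L[ℂ] YY} (hT : H.G.Flow T) {u : ℝ → AA} (hu : Continuous u) {z : AA}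
    (h : ∀ s, u s = Sg (nu0 m Q.β) s z + ∫ σ in (0 : ℝ)..s, Sg (nu0 m Q.β) (s - σ) (H.B (u σ))) :
    T 1 (dg z) = dg (u 1) := by
  have h1 : Continuous fun σ => dg (u σ) := dgL.continuous.comp hu
  have h2 : Continuous fun σ => H.B (u σ) := by
    have := (H.G.B.continuous.comp h1).fst
    simp only [Function.comp_def, G_B_dg] at this
    exact this
  refine (hT (dg z)).uniq ⟨continuous_zero, h1, fun s _ => ?_⟩ zero_le_one
  have hc : Continuous fun σ : ℝ => s - σ := by fun_prop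
  have h3 := congrArg dgL (h s)
  rw [map_add, ← dgL.intervalIntegral_comp_comm
    ((a1_cont_Sg (nu0 m Q.β) hc h2).intervalIntegrable _ _)] at h3
  simpa only [dgL_apply, Pi.zero_apply, zero_add, G_B_dg, G_S_dg] using h3

theorem inv_E {T : ℝ → YY →L[ℂ] YY} (hT : H.G.Flow T) : ∀ e ∈ H.E, T 1 e ∈ H.E := by
  have hm : ∀ k, dg (H.md k) ∈ H.E := fun k => Submodule.subset_span ⟨k, rfl⟩
  intro e he
  obtain ⟨c0, c1, c, rfl⟩ := H.mem_E.1 he
  simp only [map_add, map_smul, map_sum]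
  refine add_mem (add_mem (H.E.smul_mem _ ?_) (H.E.smul_mem _ ?_))
    (Submodule.sum_mem _ fun j _ => H.E.smul_mem _ ?_)
  · rw [H.a1_gen_dg hT continuous_const H.eig_P]
    exact hm none
  · rw [H.a1_gen_dg hT (u := fun s => Real.exp s • H.eT) (by fun_prop) H.eig_T, a1_dg_smul]
    exact H.E.smul_mem _ (hm (some none))
  · rw [H.a1_gen_dg hT (u := fun s => Real.exp (s / 2) • H.eD j) (by fun_prop) (H.eig_D j),
      a1_dg_smul]
    exact H.E.smul_mem _ (hm (some (some j)))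

theorem a1_gen_one {w z : YY} (hd : HasDerivWithinAt (fun t => H.G.S t w) z (Ici 0) 0) (y : E12) :
    I * Laplacian.laplacian (ev w.1) y - nu0 m Q.β * ev w.1 y - 1 / 2 * fderiv ℝ (ev w.1) y y =
      ev z.1 y := by
  obtain ⟨T, hT⟩ := ex_evL y
  have h1 := ((T.restrictScalars ℝ).comp
    (ContinuousLinearMap.fst ℝ AA AA)).hasFDerivAt.comp_hasDerivWithinAt 0 hd
  simp only [Function.comp_def, ContinuousLinearMap.comp_apply, ContinuousLinearMap.coe_fst',
    ContinuousLinearMap.coe_restrictScalars', hT, G_S] at h1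
  exact (uniqueDiffWithinAt_Ici (0 : ℝ)).eq_deriv _
    (hasDerivAt_ev_Sg (nu0 m Q.β) w.1 y).hasDerivWithinAt h1

theorem a1_gen_two {w z : YY} (hd : HasDerivWithinAt (fun t => H.G.S t w) z (Ici 0) 0) (y : E12) :
    -I * Laplacian.laplacian (ev w.2) y - conj (nu0 m Q.β) * ev w.2 y -
      1 / 2 * fderiv ℝ (ev w.2) y y = ev z.2 y := by
  have h1 := JJ.hasFDerivAt.comp_hasDerivWithinAt 0 hd
  simp only [Function.comp_def, JJ_S] at h1
  have h2 := congrArg conj (H.a1_gen_one h1 y)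
  have e : ev (cj w.2) = conjCLE ∘ ev w.2 := funext fun y => ev_cj _ y
  simp only [JJ_apply] at h2
  rw [ev_cj, ev_cj, e, InnerProductSpace.laplacian_CLE_comp_left, ContinuousLinearEquiv.comp_fderiv]
    at h2
  simpa [map_ofNat] using h2

theorem a1_gen_ev {w : YY} : w ∈ H.E ↔ Q.InEE (ev w.1) (ev w.2) := by
  have key : ∀ (c0 c1 : ℂ) (c : Fin 12 → ℂ) (y : E12),
      ev (c0 • dg (I • H.q) + c1 • dg H.eT + ∑ j, c j • dg (H.eD j)).1 y =
        c0 * Q.eP (XX y) + c1 * Q.eT (XX y) + ∑ j, c j * Q.eD j y ∧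
      ev (c0 • dg (I • H.q) + c1 • dg H.eT + ∑ j, c j • dg (H.eD j)).2 y =
        c0 * conj (Q.eP (XX y)) + c1 * conj (Q.eT (XX y)) + ∑ j, c j * conj (Q.eD j y) := by
    intro c0 c1 c y
    simp only [Prod.fst_add, Prod.snd_add, Prod.fst_sum, Prod.snd_sum, Prod.smul_fst, Prod.smul_snd,
      dg, a1_ev_add, a1_ev_sum, a1_ev_smul, ev_cj, H.ev_q, H.ev_eT, H.ev_eD, Prof.eP, and_self]
  rw [H.mem_E]
  refine exists₃_congr fun c0 c1 c => ⟨?_, fun h => Prod.ext (ev_inj fun y => ?_) (ev_inj fun y => ?_)⟩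
  · rintro rfl
    exact key c0 c1 c
  · rw [(h y).1, (key c0 c1 c y).1]
  · rw [(h y).2, (key c0 c1 c y).2]

theorem gen (h : Q.MS) (lam : ℂ) (hl : 0 ≤ lam.re) (w : YY) (e : YY) (he : e ∈ H.E)
    (hd : HasDerivWithinAt (fun t => H.G.S t w) (lam • w + e - H.G.B w) (Ici 0) 0) : w ∈ H.E := by
  refine H.a1_gen_ev.2 (h lam _ _ _ _ hl (ev_contDiff _) (ev_contDiff _)
    (fun j hj => ⟨‖w‖, fun y => ⟨(ev_bound _ hj y).trans (norm_fst_le w),
      (ev_bound _ hj y).trans (norm_snd_le w)⟩⟩)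
    (H.a1_gen_ev.1 (H.E.smul_mem (-1) he)) (fun y => ?_) fun y => ?_)
  · have h1 := H.a1_gen_one hd y
    simp only [Prod.fst_sub, Prod.fst_add, Prod.smul_fst, G_B, a1_ev_sub, a1_ev_add, a1_ev_smul,
      ev_conv, H.ev_V1, H.ev_V2, nu0] at h1 ⊢
    linear_combination (-I) * h1 + (Laplacian.laplacian (ev w.1) y + Q.β * ev w.1 y -
      Q.V1 (XX y) * ev w.1 y - Q.V2 (XX y) * ev w.2 y) * I_sq
  · have h1 := H.a1_gen_two hd y
    have h2 : conj (Q.V1 (XX y)) = Q.V1 (XX y) := by simp [Prof.V1]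
    simp only [Prod.snd_sub, Prod.snd_add, Prod.smul_snd, G_B, a1_ev_sub, a1_ev_add, a1_ev_smul,
      ev_conv, ev_cj, H.ev_V1, H.ev_V2, nu0, h2, map_sub, map_mul, conj_ofReal, conj_I] at h1 ⊢
    linear_combination I * h1 + (Laplacian.laplacian (ev w.2) y + Q.β * ev w.2 y -
      Q.V1 (XX y) * ev w.2 y - conj (Q.V2 (XX y)) * ev w.1 y) * I_sq

end Hat

end Vale.Agent.P139
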