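import Mathlib

/-! P139 part A1: Fredholm alternative and Gelfand formula.
`Pr` a continuous projection on `E` (`Submodule.ClosedComplemented.of_finiteDimensional`),
`A' = A (1 - Pr) = S + K`, `K` compact. For `1 ≤ ‖μ‖`: `μ - S` is a unit, `(μ - S)⁻¹ K` is compact and has
no eigenvalue `1` (an eigenvector has `A' w = μ w`; `w' = w - Pr w` has `A w' - μ w' ∈ E`), so `μ - A'` is a unit
(`IsCompactOperator.hasEigenvalue_or_mem_resolventSet`). Hence the spectral radius of `A'` is `< 1`,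
some power has norm `< 1`, and `A ^ n w - A' ^ n w ∈ E` by induction. -/

noncomputable section

open Filter Topology Set

namespace Vale.Agent.P139

variable {Y : Type} [NormedAddCommGroup Y] [NormedSpace ℂ Y] [CompleteSpace Y]

theorem a1_spec_unit (A S : Y →L[ℂ] Y) (hS : ‖S‖ < 1) (hc : IsCompactOperator fun w => A w - S w)
    {μ : ℂ} (hμ : 1 ≤ ‖μ‖) (h : ∀ w, A w = μ • w → w = 0) : μ ∈ resolventSet ℂ A := by
  have hμ0 : μ ≠ 0 := norm_pos_iff.1 (one_pos.trans_le hμ)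
  have h1 : ‖μ⁻¹ • S‖ < 1 := by
    rw [norm_smul, norm_inv]
    exact (mul_le_of_le_one_left (norm_nonneg _) (inv_le_one_of_one_le₀ hμ)).trans_lt hS
  obtain ⟨U, hU⟩ : IsUnit (algebraMap ℂ (Y →L[ℂ] Y) μ - S) := by
    have h2 := (isUnit_one_sub_of_norm_lt_one h1).smul (Units.mk0 μ hμ0)
    rwa [Units.smul_mk0, smul_sub, smul_inv_smul₀ hμ0, ← Algebra.algebraMap_eq_smul_one] at h2
  have h3 : IsCompactOperator ((↑U⁻¹ : Y →L[ℂ] Y) * (A - S)) := hc.clm_comp (↑U⁻¹ : Y →L[ℂ] Y)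
  have e : algebraMap ℂ (Y →L[ℂ] Y) μ - A =
      ↑U * (algebraMap ℂ (Y →L[ℂ] Y) 1 - (↑U⁻¹ : Y →L[ℂ] Y) * (A - S)) := by
    rw [map_one, mul_sub, mul_one, ← mul_assoc, Units.mul_inv, one_mul, hU]
    abel
  rcases h3.hasEigenvalue_or_mem_resolventSet one_ne_zero with h4 | h4
  · obtain ⟨w, hw⟩ := h4.exists_hasEigenvector
    refine absurd (h w ?_) hw.2
    have h5 : ((↑U⁻¹ : Y →L[ℂ] Y) * (A - S)) w = (1 : ℂ) • w := hw.apply_eq_smul
    have h6 := congrArg (fun B : Y →L[ℂ] Y => B w) e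
    simp only [mul_apply_eq_comp, sub_apply, Algebra.algebraMap_eq_smul_one,
      smul_apply, one_apply_eq_self] at h5 h6
    rw [h5, sub_self, map_zero, sub_eq_zero] at h6
    exact h6.symm
  · rw [spectrum.mem_resolventSet_iff] at h4 ⊢
    rw [e]
    exact U.isUnit.mul h4

theorem a1_spec_pow (A : Y →L[ℂ] Y) (h : ∀ μ : ℂ, 1 ≤ ‖μ‖ → μ ∈ resolventSet ℂ A) :
    ∃ C r : ℝ, 0 ≤ C ∧ 0 ≤ r ∧ r < 1 ∧ ∀ n : ℕ, ‖A ^ n‖ ≤ C * r ^ n := by
  rcases subsingleton_or_nontrivial (Y →L[ℂ] Y) with h0 | h0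
  · exact ⟨0, 0, le_rfl, le_rfl, one_pos, fun n => by simp [Subsingleton.elim (A ^ n) 0]⟩
  have h1 : spectralRadius ℂ A < (1 : NNReal) := spectrum.spectralRadius_lt_of_forall_lt A
    fun z hz => not_le.1 fun h2 => hz (h z h2)
  obtain ⟨r, h2, h3⟩ := ENNReal.lt_iff_exists_nnreal_btwn.1 h1
  have hr0 : (0 : ℝ) < r := by exact_mod_cast ENNReal.coe_pos.1 (zero_le.trans_lt h2)
  have h4 : (fun n : ℕ => ‖A ^ n‖) =O[atTop] fun n : ℕ => (r : ℝ) ^ n := by
    refine Asymptotics.IsBigO.of_bound' ?_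
    filter_upwards [(spectrum.pow_norm_pow_one_div_tendsto_nhds_spectralRadius A).eventually
      (gt_mem_nhds h2), eventually_ne_atTop 0] with n hn hn0
    rw [ENNReal.ofReal_lt_iff_lt_toReal (by positivity) ENNReal.coe_ne_top, ENNReal.coe_toReal,
      one_div] at hn
    rw [norm_norm, Real.norm_of_nonneg (by positivity),
      ← Real.rpow_inv_natCast_pow (norm_nonneg (A ^ n)) hn0]
    exact pow_le_pow_left₀ (by positivity) hn.le n
  obtain ⟨C, hC, h5⟩ := Asymptotics.bound_of_isBigO_nat_atTop h4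
  refine ⟨C, r, hC.le, hr0.le, by exact_mod_cast h3, fun n => ?_⟩
  simpa using h5 (x := n) (by positivity)

theorem a1_spec (A S : Y →L[ℂ] Y) (hS : ‖S‖ < 1) (hc : IsCompactOperator fun w => A w - S w)
    (E : Submodule ℂ Y) [FiniteDimensional ℂ E] (inv : ∀ e ∈ E, A e ∈ E)
    (ms : ∀ μ : ℂ, 1 ≤ ‖μ‖ → ∀ w, A w - μ • w ∈ E → w ∈ E) :
    ∃ C r : ℝ, 0 ≤ C ∧ 0 ≤ r ∧ r < 1 ∧ ∀ (n : ℕ) w, ∃ e ∈ E, ‖(A ^ n) w - e‖ ≤ C * r ^ n * ‖w‖ := by
  obtain ⟨p, hp⟩ := Submodule.ClosedComplemented.of_finiteDimensional E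
  have : ProperSpace E := FiniteDimensional.proper ℂ E
  obtain ⟨A', hA⟩ : ∃ A' : Y →L[ℂ] Y, ∀ w, A' w = A w - A (p w) :=
    ⟨A - A.comp (E.subtypeL.comp p), fun _ => rfl⟩
  have h1 : IsCompactOperator fun w => A' w - S w := by
    have h2 := hc.sub ((isCompactOperator_of_locallyCompactSpace_dom p).clm_comp (A.comp E.subtypeL))
    have e : (fun w => A' w - S w) = (fun w => A w - S w) - (A.comp E.subtypeL) ∘ p := by
      funext w
      rw [hA, sub_right_comm]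
      rfl
    rwa [e]
  obtain ⟨C, r, hC, hr0, hr, h⟩ := a1_spec_pow A' fun μ hμ => a1_spec_unit A' S hS h1 hμ fun w hw => by
    have h3 : w - p w ∈ E := ms μ hμ _ (by
      rw [map_sub, ← hA, hw, ← smul_sub, sub_sub_cancel]
      exact E.smul_mem _ (p w).2)
    have h4 : w ∈ E := by simpa using E.add_mem h3 (p w).2
    have h5 : (p w : Y) = w := congrArg Subtype.val (hp ⟨w, h4⟩)
    rw [hA, h5, sub_self, eq_comm, smul_eq_zero] at hw
    exact hw.resolve_left (norm_pos_iff.1 (one_pos.trans_le hμ))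
  refine ⟨C, r, hC, hr0, hr, fun n w => ⟨(A ^ n) w - (A' ^ n) w, ?_, ?_⟩⟩
  · induction n with
    | zero => simp
    | succ n ih =>
      have h6 := E.add_mem (inv _ ih) (inv _ (p ((A' ^ n) w)).2)
      rw [pow_succ', pow_succ', mul_apply_eq_comp, mul_apply_eq_comp, hA]
      rwa [map_sub, ← sub_add] at *
  · rw [sub_sub_cancel]
    exact ((A' ^ n).le_opNorm w).trans (mul_le_mul_of_nonneg_right (h n) (norm_nonneg _))

end Vale.Agent.P139
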