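import Vale.Agent.P139.A1.Rep
import Vale.Agent.P139.A1.Gen
import Vale.Agent.P139.A1.Four
import Vale.Agent.P139.A1.Spec

/-! P139 part A1: assembly. `Z η κ s` is the first component of `κ W + JJ (κ W)`. -/

noncomputable section

open MeasureTheory Filter Topology Set Complex
open scoped ComplexConjugate RealInnerProductSpace

namespace Vale.Agent.P139

/-- The real part. -/
def RR : YY →L[ℝ] AA :=
  ContinuousLinearMap.fst ℝ AA AA + cj.comp (ContinuousLinearMap.snd ℝ AA AA)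

theorem RR_apply (w : YY) : RR w = w.1 + cj w.2 := rfl

theorem dg_RR (w : YY) : dg (RR w) = w + JJ w := by
  rw [RR_apply, dg, map_add, cj_cj, JJ_apply, add_comm (cj w.1)]
  rfl

theorem norm_RR (w : YY) : ‖RR w‖ ≤ 2 * ‖w‖ := by
  rw [RR_apply, two_mul]
  exact (norm_add_le _ _).trans (add_le_add (norm_fst_le w) ((norm_cj _).le.trans (norm_snd_le w)))

theorem RR_dg (c : ℂ) (z : AA) : RR (c • dg z) = (2 * c.re) • z := by
  rw [RR_apply, dg, Prod.smul_mk, cj_smul, cj_cj, ← add_smul, add_conj]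
  exact algebraMap_smul ℂ (2 * c.re) z

namespace Hat
variable {m : ℕ} {Q : Prof m} (H : Hat Q)

theorem a1_dec (h : Q.MS) {W : E12 → ℝ → YY} (hW : H.Resp W) {ε : ℝ} (hε : 0 < ε) :
    ∀ᶠ N : ℕ in atTop, ∀ η, ∃ e ∈ H.E, ‖W η N - e‖ ≤ ε * Wt η := by
  obtain ⟨T, hT⟩ := H.G.a1_flow
  have hS : ‖H.G.S 1‖ < 1 := by
    refine (ContinuousLinearMap.opNorm_le_bound _ (Real.exp_pos _).le
      (norm_SS (nu0 m Q.β) zero_le_one)).trans_lt (Real.exp_lt_one_iff.2 ?_)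
    rw [nu0_re, mul_one]
    exact neg_lt_zero.2 (aa_pos Q)
  obtain ⟨C, r, hC, hr0, hr, hd⟩ := a1_spec (T 1) (H.G.S 1) hS (H.cpt hT) H.E (H.inv_E hT)
    fun μ hμ w hw => hT.ms H.E H.E.closed_of_finiteDimensional (H.gen h) hμ hw
  obtain ⟨D, hD, hb⟩ := H.b1_le
  filter_upwards [hT.decay H.E hC hr0 hr (aa_pos Q) hd (ε := ε / (D + 1)) (by positivity)]
    with N hN η
  obtain ⟨e, he, h1⟩ := hN _ _ _ (hW.mild η) (hb η)
  refine ⟨e, he, h1.trans ?_⟩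
  have h2 : ε / (D + 1) * D ≤ ε := by
    rw [div_mul_eq_mul_div, div_le_iff₀ (by positivity)]
    nlinarith
  rw [← mul_assoc]
  exact mul_le_mul_of_nonneg_right h2 (zero_le_one.trans (a1_Wt_pos η))

/-- The modes as a linear map. -/
def modeL : (ℝ × ℝ × E12) →ₗ[ℝ] AA where
  toFun p := H.mode p.1 p.2.1 p.2.2
  map_add' p p' := by
    simp only [mode, Prod.fst_add, Prod.snd_add, PiLp.add_apply, add_smul, Finset.sum_add_distrib]
    abel
  map_smul' c p := by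
    simp only [mode, Prod.smul_fst, Prod.smul_snd, PiLp.smul_apply, smul_eq_mul, mul_smul, smul_add,
      Finset.smul_sum, RingHom.id_apply]

theorem a1_coef : ∃ C, 0 ≤ C ∧ ∀ (c0 c1 : ℝ) (x : E12), ∃ (d0 d1 : ℝ) (y : E12),
    H.mode d0 d1 y = H.mode c0 c1 x ∧ |d0| + |d1| + ‖y‖ ≤ C * ‖H.mode c0 c1 x‖ := by
  obtain ⟨g, hg⟩ := H.modeL.rangeRestrict.exists_rightInverse_of_surjective
    H.modeL.range_rangeRestrict
  refine ⟨3 * ‖LinearMap.toContinuousLinearMap g‖, by positivity, fun c0 c1 x => ?_⟩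
  let v : LinearMap.range H.modeL := ⟨H.modeL (c0, c1, x), LinearMap.mem_range_self _ _⟩
  have h1 : H.modeL (g v) = H.modeL (c0, c1, x) := congrArg Subtype.val (LinearMap.congr_fun hg v)
  have h2 : ‖g v‖ ≤ ‖LinearMap.toContinuousLinearMap g‖ * ‖H.mode c0 c1 x‖ :=
    (LinearMap.toContinuousLinearMap g).le_opNorm v
  refine ⟨(g v).1, (g v).2.1, (g v).2.2, h1, ?_⟩
  have h3 : |(g v).1| ≤ ‖g v‖ := norm_fst_le (g v)
  have h4 : |(g v).2.1| ≤ ‖g v‖ := (norm_fst_le (g v).2).trans (norm_snd_le _)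
  have h5 : ‖(g v).2.2‖ ≤ ‖g v‖ := (norm_snd_le (g v).2).trans (norm_snd_le _)
  linarith

theorem a1_RR_E {e : YY} (he : e ∈ H.E) : ∃ (c0 c1 : ℝ) (x : E12), RR e = H.mode c0 c1 x := by
  obtain ⟨c0, c1, c, rfl⟩ := H.mem_E.1 he
  exact ⟨2 * c0.re, 2 * c1.re, WithLp.toLp 2 fun j => 2 * (c j).re, by
    simp only [map_add, map_sum, RR_dg, mode]⟩

theorem a1_RR_b1 (η : E12) (κ : ℂ) (σ : ℝ) :
    RR (κ • H.b1 η σ) = H.b (Real.exp (-σ / 2) • η) (amp (Q := Q) η κ σ) := by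
  have e : κ * amp (Q := Q) η 1 σ = amp (Q := Q) η κ σ := by rw [amp, amp, one_mul]
  rw [b1, smul_smul, e, RR_apply, b, Prod.smul_mk, cj_smul, cj_smul, a1_cj_tr, cj_cj, conj_I,
    smul_add, smul_comm (-I), smul_comm (-I)]

theorem a1_duh {W : E12 → ℝ → YY} (hW : H.Resp W) (η : E12) (κ : ℂ) {s : ℝ} (hs : 0 ≤ s) :
    RR (κ • W η s) = ∫ σ in (0 : ℝ)..s, Sg (nu0 m Q.β) (s - σ)
      (H.b (Real.exp (-σ / 2) • η) (amp (Q := Q) η κ σ) + H.B (RR (κ • W η σ))) := by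
  have h1 := (hW.mild η).smul κ
  have h2 := h1.add (h1.map JJ H.JJ_S H.JJ_B)
  have h3 := congrArg (ContinuousLinearMap.fst ℝ AA AA) (h2.eq s hs)
  rw [map_add _ (H.G.S s _), ← ContinuousLinearMap.intervalIntegral_comp_comm _
    (H.G.a1_int h2.cf _ _ _)] at h3
  simp only [← dg_RR, H.G_B_dg, H.a1_RR_b1, smul_zero, map_zero] at h3
  simpa only [ContinuousLinearMap.coe_fst', dg, G_S, Prod.fst_add, map_zero, zero_add] using h3

theorem a1_main (h : Q.MS) {ε : ℝ} (hε : 0 < ε) :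
    ∃ (N C : ℝ) (Z : E12 → ℂ → ℝ → AA), 1 ≤ N ∧ Real.exp (-aa m * N) ≤ ε ∧ H.Lin N C ε Z := by
  obtain ⟨W, hW⟩ := H.ex_resp
  have h1 : Tendsto (fun N : ℕ => Real.exp (-aa m * N)) atTop (𝓝 0) :=
    Real.tendsto_exp_atBot.comp
      (tendsto_natCast_atTop_atTop.const_mul_atTop_of_neg (neg_lt_zero.2 (aa_pos Q)))
  obtain ⟨N, ⟨hd, hN1⟩, hN2⟩ := (((H.a1_dec h hW (half_pos hε)).and (eventually_ge_atTop 1)).and
    (h1.eventually (ge_mem_nhds hε))).exists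
  obtain ⟨C, hC, hb⟩ := hW.bdd H N
  obtain ⟨D, hD, hc⟩ := H.a1_coef
  have hle : ∀ (κ : ℂ) (w : YY) (c : ℝ) (η : E12), ‖w‖ ≤ c / 2 * Wt η →
      ‖RR (κ • w)‖ ≤ c * (‖κ‖ * Wt η) := fun κ w c η hw => by
    refine (norm_RR _).trans ?_
    rw [norm_smul]
    have := mul_le_mul_of_nonneg_left hw (norm_nonneg κ)
    linarith
  have hb' : ∀ η (κ : ℂ), ∀ s ≤ (N : ℝ), ‖RR (κ • W η s)‖ ≤ 2 * C * (‖κ‖ * Wt η) :=
    fun η κ s hs => hle _ _ _ _ (by rw [mul_div_cancel_left₀ _ two_ne_zero]; exact hb η s hs)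
  have hp : ∀ η (κ : ℂ), 0 ≤ ‖κ‖ * Wt η := fun η κ =>
    mul_nonneg (norm_nonneg _) (zero_le_one.trans (a1_Wt_pos η))
  refine ⟨N, 2 * C + D * (2 * C + ε), fun η κ s => RR (κ • W η s), by exact_mod_cast hN1, hN2,
    ?_, fun η κ s hs => H.a1_duh hW η κ hs, fun η κ s t => ?_, fun η κ s hs => ?_, fun δ hδ => ?_,
    fun η κ => ?_⟩
  · have h2 : Continuous fun p : E12 × ℂ × ℝ => W p.1 p.2.2 := by
      simpa only [Function.comp_def] using hW.cont.comp (continuous_fst.prodMk continuous_snd.snd)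
    exact RR.continuous.comp (continuous_snd.fst.smul h2)
  · rw [mul_smul, Complex.coe_smul, map_smul]
  · exact (hb' η κ s hs.2).trans (mul_le_mul_of_nonneg_right
      (le_add_of_nonneg_right (by positivity)) (hp η κ))
  · obtain ⟨M, hM⟩ := hW.far H N (half_pos hδ)
    exact ⟨M, fun η κ hη s hs => hle _ _ _ _ (hM η hη s hs)⟩
  · obtain ⟨e, he, h2⟩ := hd η
    obtain ⟨c0, c1, x, h3⟩ := H.a1_RR_E (H.E.smul_mem κ he)
    obtain ⟨d0, d1, y, h4, h5⟩ := hc c0 c1 x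
    have h6 := hle κ _ _ _ h2
    rw [smul_sub, map_sub, h3] at h6
    refine ⟨d0, d1, y, h5.trans ?_, h4 ▸ h6⟩
    have h7 : ‖H.mode c0 c1 x‖ ≤ (2 * C + ε) * (‖κ‖ * Wt η) := by
      have h8 := norm_sub_norm_le (H.mode c0 c1 x) (RR (κ • W η N))
      rw [norm_sub_rev] at h8
      have h9 := hb' η κ N le_rfl
      linarith
    have h10 := mul_le_mul_of_nonneg_left h7 hD
    have h11 := mul_nonneg hC (hp η κ)
    linarith

end Hat

end Vale.Agent.P139
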