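import Vale.Agent.P139.A1.Far
import Vale.Agent.P139.A1.Cpt

/-! P139 part A1: `T 1 - S 1` is compact.
`rep_b1`: `conv_eq_integral`, `Sg_ae`, change of variables `η = e^(σ/2) ξ` (`Measure.integral_comp_smul`).
`rep_mild`: Fubini (`intervalIntegral_integral_swap`), continuity by dominated convergence. -/

noncomputable section

open MeasureTheory Filter Topology Set Complex
open scoped ComplexConjugate RealInnerProductSpace

namespace Vale.Agent.P139

namespace Hat
variable {m : ℕ} {Q : Prof m} (H : Hat Q)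

theorem rep_conv (V f : AA) (σ : ℝ) : conv V (Sg (nu0 m Q.β) σ f) =
    ∫ η, f η • (amp (Q := Q) η 1 σ • tr (Real.exp (-σ / 2) • η) V) := by
  have h1 := Measure.integral_comp_smul (volume : Measure E12)
    (fun η => f η • (amp (Q := Q) η 1 σ • tr (Real.exp (-σ / 2) • η) V)) (Real.exp (σ / 2))
  have h2 : Real.exp (σ / 2) ^ Module.finrank ℝ E12 = Real.exp (6 * σ) := by
    rw [finrank_euclideanSpace_fin, ← Real.exp_nat_mul]
    congr 1
    push_cast
    ring
  rw [h2, abs_of_pos (inv_pos.2 (Real.exp_pos _)), eq_inv_smul_iff₀ (Real.exp_pos _).ne',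
    ← integral_smul] at h1
  rw [conv_eq_integral, ← h1]
  refine integral_congr_ae ?_
  filter_upwards [Sg_ae (nu0 m Q.β) σ f] with ξ hξ
  have h3 : Real.exp (-σ / 2) • Real.exp (σ / 2) • ξ = ξ := by
    rw [smul_smul, ← Real.exp_add, show -σ / 2 + σ / 2 = 0 by ring, Real.exp_zero, one_smul]
  have h4 : (1 - Real.exp (-σ)) * ‖Real.exp (σ / 2) • ξ‖ ^ 2 = (Real.exp σ - 1) * ‖ξ‖ ^ 2 := by
    rw [norm_smul, mul_pow, Real.norm_of_nonneg (Real.exp_pos _).le, ← Real.exp_nat_mul,
      show ((2 : ℕ) : ℝ) * (σ / 2) = σ by push_cast; ring, ← mul_assoc, sub_mul, ← Real.exp_add,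
      neg_add_cancel, Real.exp_zero, one_mul]
  rw [hξ, h3, amp, h4, ← algebraMap_smul ℂ (Real.exp (6 * σ)), smul_smul, smul_smul]
  congr 1
  rw [one_mul, mul_right_comm, coe_algebraMap, ofReal_exp, ← exp_add]
  congr 2
  push_cast
  ring

theorem rep_int1 (f : AA) {σ : ℝ} (hσ : 0 ≤ σ) : Integrable fun η => f η • H.b1 η σ := by
  obtain ⟨C, -, hC⟩ := H.b1_le
  refine a1_integrable (C := C * Real.exp (-aa m * σ)) ?_
    (fun η => (hC η σ hσ).trans_eq (mul_right_comm _ _ _)) f
  simpa only [Function.comp_def] using H.b1_cont.comp (Continuous.prodMk_left σ)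

theorem rep_b1 (f : AA) {σ : ℝ} (hσ : 0 ≤ σ) :
    H.G.B (H.G.S σ (f, 0)) = ∫ η, f η • H.b1 η σ := by
  have hi := H.rep_int1 f hσ
  refine Prod.ext ?_ ?_
  · rw [fst_integral hi]
    simp only [G_B, G_S, map_zero, add_zero, b1, Prod.smul_mk, rep_conv, ← integral_smul,
      smul_comm (-I)]
  · rw [snd_integral hi]
    simp only [G_B, G_S, map_zero, add_zero, b1, Prod.smul_mk, rep_conv, ← integral_smul,
      smul_comm I]

theorem Resp.cont1 {W : E12 → ℝ → YY} (h : H.Resp W) (s : ℝ) : Continuous fun η => W η s := by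
  simpa only [Function.comp_def] using h.cont.comp (Continuous.prodMk_left s)

theorem rep_mild {W : E12 → ℝ → YY} (h : H.Resp W) (f : AA) :
    H.G.Mild 0 (fun σ => H.G.B (H.G.S σ (f, 0))) fun s => ∫ η, f η • W η s := by
  refine ⟨H.G.B.continuous.comp (H.G.a1_cont continuous_id continuous_const),
    continuous_iff_continuousAt.2 fun s => ?_, fun s hs => ?_⟩
  · obtain ⟨C, -, hC⟩ := h.bdd H (s + 1)
    refine continuousAt_of_dominated (.of_forall fun t =>
      (a1_meas f).smul (h.cont1 H t).aestronglyMeasurable) ?_ ((a1_wint f).const_mul C)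
      (.of_forall fun η => ((h.mild η).cW.const_smul (f η)).continuousAt)
    filter_upwards [Iio_mem_nhds (lt_add_one s)] with t ht
    exact .of_forall fun η => a1_smul_le (hC η t (le_of_lt ht)) _
  obtain ⟨C, hC0, hC⟩ := h.bdd H s
  obtain ⟨D, hD0, hD⟩ := H.b1_le
  have hc : Continuous fun p : ℝ × E12 => H.G.S (s - p.1) (H.b1 p.2 p.1 + H.G.B (W p.2 p.1)) := by
    have h1 : Continuous fun p : ℝ × E12 => H.b1 p.2 p.1 := by
      simpa only [Function.comp_def, Prod.fst_swap, Prod.snd_swap] using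
        H.b1_cont.comp continuous_swap
    have h2 : Continuous fun p : ℝ × E12 => W p.2 p.1 := by
      simpa only [Function.comp_def, Prod.fst_swap, Prod.snd_swap] using h.cont.comp continuous_swap
    exact H.G.a1_cont (continuous_const.sub continuous_fst) (h1.add (H.G.B.continuous.comp h2))
  have hi : Integrable (Function.uncurry fun σ η =>
      f η • H.G.S (s - σ) (H.b1 η σ + H.G.B (W η σ))) ((volume.restrict (uIoc 0 s)).prod volume) := by
    have : IsFiniteMeasure (volume.restrict (uIoc 0 s)) := by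
      rw [uIoc_of_le hs]
      infer_instance
    refine (((a1_wint f).const_mul (D + ‖H.G.B‖ * C)).comp_snd _).mono'
      ((a1_meas f).comp_snd.smul hc.aestronglyMeasurable) ?_
    have h3 : ∀ᵐ p : ℝ × E12 ∂(volume.restrict (uIoc 0 s)).prod volume, p.1 ∈ uIoc 0 s :=
      Measure.quasiMeasurePreserving_fst.ae (ae_restrict_mem measurableSet_uIoc)
    filter_upwards [h3] with p hp
    rw [uIoc_of_le hs] at hp
    refine a1_smul_le ((H.G.le _ (sub_nonneg.2 hp.2) _).trans ((norm_add_le _ _).trans ?_)) _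
    have h4 : 0 ≤ Wt p.2 := zero_le_one.trans (a1_Wt_pos _)
    have h5 : Real.exp (-aa m * p.1) ≤ 1 := Real.exp_le_one_iff.2 (by
      have := aa_pos Q
      nlinarith [hp.1])
    rw [add_mul, mul_assoc]
    exact add_le_add ((hD _ _ hp.1.le).trans (mul_le_of_le_one_right (by positivity) h5))
      ((H.G.B.le_opNorm _).trans (mul_le_mul_of_nonneg_left (hC _ _ hp.2) (norm_nonneg _)))
  have h6 := intervalIntegral_integral_swap hi
  simp only [intervalIntegral.integral_smul] at h6
  have h7 : ∀ η, W η s = ∫ σ in (0 : ℝ)..s, H.G.S (s - σ) (H.b1 η σ + H.G.B (W η σ)) := fun η => by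
    simpa only [map_zero, zero_add] using (h.mild η).eq s hs
  simp only [← h7] at h6
  rw [map_zero, zero_add, ← h6]
  refine intervalIntegral.integral_congr fun σ hσ => ?_
  rw [uIcc_of_le hs] at hσ
  have h8 := H.rep_int1 f hσ.1
  have h9 := a1_integrable (h.cont1 H σ) (fun η => hC η σ hσ.2) f
  have h10 : Integrable fun η => f η • H.b1 η σ + H.G.B (f η • W η σ) :=
    h8.add (H.G.B.integrable_comp h9)
  beta_reduce
  rw [H.rep_b1 f hσ.1, ← H.G.B.integral_comp_comm h9,
    ← integral_add h8 (H.G.B.integrable_comp h9), ← (H.G.S (s - σ)).integral_comp_comm h10]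
  simp only [map_smul, ← smul_add]

theorem cpt {T : ℝ → YY →L[ℂ] YY} (hT : H.G.Flow T) :
    IsCompactOperator fun w => T 1 w - H.G.S 1 w := by
  obtain ⟨W, hW⟩ := H.ex_resp
  have hK : IsCompactOperator fun f : AA => ∫ η, f η • W η 1 := a1_cpt (hW.cont1 H 1) fun δ hδ =>
    (hW.far H 1 hδ).imp fun M hM η hη => hM η hη 1 ⟨zero_le_one, le_rfl⟩
  have h1 : ∀ f : AA, T 1 (f, 0) - H.G.S 1 (f, 0) = ∫ η, f η • W η 1 := fun f =>
    (hT.diff (f, 0)).uniq (H.rep_mild hW f) zero_le_one
  have h2 : ∀ v, T 1 (JJ v) = JJ (T 1 v) := fun v => by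
    have h3 := (hT v).map JJ H.JJ_S H.JJ_B
    simp only [Pi.zero_apply, map_zero] at h3
    exact (hT (JJ v)).uniq h3 zero_le_one
  have h4 := (hK.comp_clm (ContinuousLinearMap.fst ℂ AA AA)).add
    ((hK.comp_clm (cj.comp (ContinuousLinearMap.snd ℝ AA AA))).continuous_comp JJ.continuous)
  have e : (fun w => T 1 w - H.G.S 1 w) = fun w : YY =>
      (∫ η, w.1 η • W η 1) + JJ (∫ η, cj w.2 η • W η 1) := by
    funext w
    have e1 : w = (w.1, 0) + JJ (cj w.2, 0) := by simp [JJ_apply, cj_cj]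
    rw [← h1, ← h1, map_sub, ← h2, H.JJ_S]
    conv_lhs => rw [e1, map_add, map_add]
    abel
  rw [e]
  exact h4

end Hat

end Vale.Agent.P139
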