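import Vale.Agent.P139.A0
import Vale.Agent.P139.A1.Flow

/-! P139 part A1: the complexified linearised problem on `AA × AA`. -/

noncomputable section

open MeasureTheory Filter Topology Set Complex
open scoped ComplexConjugate RealInnerProductSpace

namespace Vale.Agent.P139

abbrev YY : Type := AA × AA

theorem a1_cj_conv (f g : AA) : cj (conv f g) = conv (cj f) (cj g) :=
  ev_inj fun y => by rw [ev_cj, ev_conv, ev_conv, ev_cj, ev_cj, map_mul]

theorem a1_cj_tr (η : E12) (g : AA) : cj (tr η g) = tr (-η) (cj g) :=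
  ev_inj fun y => by
    rw [ev_cj, ev_tr, ev_tr, ev_cj, map_mul, ← exp_conj, map_mul, conj_I, conj_ofReal, inner_neg_left]
    push_cast
    ring_nf

/-- The conjugate of a complex linear operator. -/
def cjOp (A : AA →L[ℂ] AA) : AA →L[ℂ] AA where
  toFun g := cj (A (cj g))
  map_add' f g := by simp only [map_add]
  map_smul' c g := by rw [cj_smul, map_smul, cj_smul, conj_conj]; rfl
  cont := cj.continuous.comp (A.continuous.comp cj.continuous)

theorem cjOp_apply (A : AA →L[ℂ] AA) (g : AA) : cjOp A g = cj (A (cj g)) := rfl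

/-- The involution. -/
def JJ : YY →L[ℝ] YY :=
  (cj.comp (ContinuousLinearMap.snd ℝ AA AA)).prod (cj.comp (ContinuousLinearMap.fst ℝ AA AA))

theorem JJ_apply (w : YY) : JJ w = (cj w.2, cj w.1) := rfl

theorem JJ_smul (c : ℂ) (w : YY) : JJ (c • w) = conj c • JJ w := by
  simp only [JJ_apply, Prod.smul_snd, Prod.smul_fst, cj_smul, Prod.smul_mk]

theorem norm_JJ (w : YY) : ‖JJ w‖ = ‖w‖ := by
  rw [JJ_apply, Prod.norm_def, Prod.norm_def, norm_cj, norm_cj, max_comm]

/-- The real elements. -/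
def dg (z : AA) : YY := (z, cj z)

theorem JJ_dg (z : AA) : JJ (dg z) = dg z := by rw [JJ_apply, dg, cj_cj]

theorem nu0_re (m : ℕ) (β : ℝ) : (nu0 m β).re = aa m := by simp [nu0]

theorem aa_pos {m : ℕ} (Q : Prof m) : 0 < aa m := by
  have : (0 : ℝ) < m := by exact_mod_cast Q.m_pos
  unfold aa
  positivity

/-- The free flow. -/
def SS (ν : ℂ) (s : ℝ) : YY →L[ℂ] YY := (Sg ν s).prodMap (cjOp (Sg ν s))

theorem SS_apply (ν : ℂ) (s : ℝ) (w : YY) : SS ν s w = (Sg ν s w.1, cj (Sg ν s (cj w.2))) := rfl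

theorem norm_SS (ν : ℂ) {s : ℝ} (hs : 0 ≤ s) (w : YY) :
    ‖SS ν s w‖ ≤ Real.exp (-ν.re * s) * ‖w‖ := by
  rw [SS_apply, Prod.norm_def]
  refine max_le ((norm_Sg ν hs _).trans ?_) ?_
  · exact mul_le_mul_of_nonneg_left (norm_fst_le w) (Real.exp_pos _).le
  · rw [norm_cj]
    refine (norm_Sg ν hs _).trans ?_
    rw [norm_cj]
    exact mul_le_mul_of_nonneg_left (norm_snd_le w) (Real.exp_pos _).le

theorem a1_cont_Sg (ν : ℂ) {P : Type} [TopologicalSpace P] {t : P → ℝ} {f : P → AA}
    (ht : Continuous t) (hf : Continuous f) : Continuous fun p => Sg ν (t p) (f p) := by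
  simpa only [Function.comp_def] using (continuous_Sg ν).comp (ht.prodMk hf)

theorem a1_cont_tr {P : Type} [TopologicalSpace P] {t : P → E12} {f : P → AA}
    (ht : Continuous t) (hf : Continuous f) : Continuous fun p => tr (t p) (f p) := by
  simpa only [Function.comp_def] using continuous_tr.comp (ht.prodMk hf)

theorem cont_SS (ν : ℂ) : Continuous fun p : ℝ × YY => SS ν p.1 p.2 := by
  simp only [SS_apply]
  have h1 : Continuous fun p : ℝ × YY => cj p.2.2 := cj.continuous.comp continuous_snd.snd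
  have h2 := a1_cont_Sg ν continuous_fst h1
  exact (a1_cont_Sg ν continuous_fst continuous_snd.fst).prodMk (cj.continuous.comp h2)

namespace Hat
variable {m : ℕ} {Q : Prof m} (H : Hat Q)

/-- The complexified potential term. -/
def BB : YY →L[ℂ] YY :=
  (-I • ((conv H.V1).coprod (conv H.V2))).prod (I • ((conv (cj H.V2)).coprod (conv (cj H.V1))))

theorem BB_apply (w : YY) : H.BB w = (-I • (conv H.V1 w.1 + conv H.V2 w.2),
    I • (conv (cj H.V2) w.1 + conv (cj H.V1) w.2)) := rfl

/-- The complexified problem. -/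
def G : SG YY where
  S := SS (nu0 m Q.β)
  B := H.BB
  cont := cont_SS _
  zero := fun y => by rw [SS_apply, Sg_zero, Sg_zero, cj_cj]
  add := fun s t y => by simp only [SS_apply, Sg_add, cj_cj]
  le := fun s hs y => (norm_SS _ hs y).trans (mul_le_of_le_one_left (norm_nonneg _)
    (Real.exp_le_one_iff.2 (by rw [nu0_re]; have := aa_pos Q; nlinarith)))

theorem G_S (s : ℝ) (w : YY) : H.G.S s w =
    (Sg (nu0 m Q.β) s w.1, cj (Sg (nu0 m Q.β) s (cj w.2))) := rfl

theorem G_B (w : YY) : H.G.B w = (-I • (conv H.V1 w.1 + conv H.V2 w.2),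
    I • (conv (cj H.V2) w.1 + conv (cj H.V1) w.2)) := rfl

theorem JJ_S (s : ℝ) (w : YY) : JJ (H.G.S s w) = H.G.S s (JJ w) := by
  simp only [G_S, JJ_apply, cj_cj]

theorem JJ_B (w : YY) : JJ (H.G.B w) = H.G.B (JJ w) := by
  simp only [G_B, JJ_apply, cj_smul, map_add, a1_cj_conv, cj_cj, map_neg, conj_I, neg_neg]
  rw [add_comm (conv H.V2 _), add_comm (conv (cj H.V1) _)]

theorem G_B_dg (z : AA) : H.G.B (dg z) = dg (H.B z) := by
  simp only [G_B, dg, B, cj_smul, map_add, a1_cj_conv, cj_cj, map_neg, conj_I, neg_neg]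
  rw [add_comm (conv (cj H.V2) _)]

theorem G_S_dg (s : ℝ) (z : AA) : H.G.S s (dg z) = dg (Sg (nu0 m Q.β) s z) := by
  simp only [G_S, dg, cj_cj]

/-- The potential term applied to the freely evolved plane wave in the first component. -/
def b1 (η : E12) (σ : ℝ) : YY := amp (Q := Q) η 1 σ •
  (-I • tr (Real.exp (-σ / 2) • η) H.V1, I • tr (Real.exp (-σ / 2) • η) (cj H.V2))

/-- The symmetry modes. -/
def md : Option (Option (Fin 12)) → AA
  | none => I • H.q
  | some none => H.eT
  | some (some j) => H.eD j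

/-- The span of the symmetry modes. -/
def E : Submodule ℂ YY := Submodule.span ℂ (range fun k => dg (H.md k))

instance : FiniteDimensional ℂ H.E := FiniteDimensional.span_of_finite ℂ (finite_range _)

theorem mem_E {w : YY} : w ∈ H.E ↔ ∃ (c0 c1 : ℂ) (c : Fin 12 → ℂ),
    w = c0 • dg (I • H.q) + c1 • dg H.eT + ∑ j, c j • dg (H.eD j) := by
  rw [E, Submodule.mem_span_range_iff_exists_fun]
  constructor
  · rintro ⟨c, rfl⟩
    exact ⟨c none, c (some none), fun j => c (some (some j)), by
      simp only [Fintype.sum_option, md, add_assoc]⟩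
  · rintro ⟨c0, c1, c, rfl⟩
    exact ⟨fun k => k.elim c0 fun k => k.elim c1 c, by
      simp only [Fintype.sum_option, md, add_assoc, Option.elim]⟩

/-- The response to plane waves. -/
structure Resp (W : E12 → ℝ → YY) : Prop where
  cont : Continuous fun p : E12 × ℝ => W p.1 p.2
  mild : ∀ η, H.G.Mild 0 (H.b1 η) (W η)
  max : ∀ η s, W η s = W η (max s 0)

end Hat

end Vale.Agent.P139
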