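import Vale.Agent.P139.A1.Abs

/-! P139 part A1: a priori estimate (Gronwall), linearity, uniqueness, shift. -/

noncomputable section

open MeasureTheory Filter Topology Set

set_option linter.unusedSectionVars false

namespace Vale.Agent.P139

variable {Y : Type} [NormedAddCommGroup Y] [NormedSpace ℂ Y] [NormedSpace ℝ Y]
  [IsScalarTower ℝ ℂ Y] [CompleteSpace Y] {G : SG Y}

theorem SG.Mild.cBW {y : Y} {b W : ℝ → Y} (h : G.Mild y b W) : Continuous fun σ => G.B (W σ) :=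
  G.B.continuous.comp h.cW

theorem SG.Mild.cf {y : Y} {b W : ℝ → Y} (h : G.Mild y b W) :
    Continuous fun σ => b σ + G.B (W σ) := h.cb.add h.cBW

theorem SG.Mild.est {y : Y} {b W : ℝ → Y} (h : G.Mild y b W) {N M : ℝ}
    (hM : ∀ s ∈ Icc 0 N, ‖G.S s y + ∫ σ in (0 : ℝ)..s, G.S (s - σ) (b σ)‖ ≤ M) :
    ∀ s ∈ Icc 0 N, ‖W s‖ ≤ Real.exp (‖G.B‖ * N) * M := by
  have hsp : ∀ s, 0 ≤ s → W s = (G.S s y + ∫ σ in (0 : ℝ)..s, G.S (s - σ) (b σ)) +
      ∫ σ in (0 : ℝ)..s, G.S (s - σ) (G.B (W σ)) := fun s hs => by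
    rw [add_assoc, ← intervalIntegral.integral_add (G.a1_int h.cb _ _ _)
      (G.a1_int h.cBW _ _ _)]
    simpa only [map_add] using h.eq s hs
  have hn : Continuous fun σ => ‖G.B‖ * ‖W σ‖ := continuous_const.mul h.cW.norm
  have h1 : ∀ s ∈ Icc 0 N, ‖W s‖ ≤ M + ∫ σ in (0 : ℝ)..s, ‖G.B‖ * ‖W σ‖ := fun s hs => by
    rw [hsp s hs.1]
    refine (norm_add_le _ _).trans (add_le_add (hM s hs) ?_)
    refine intervalIntegral.norm_integral_le_of_norm_le hs.1 (.of_forall fun σ hσ => ?_)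
      (hn.intervalIntegrable _ _)
    exact (G.le _ (sub_nonneg.2 hσ.2) _).trans (G.B.le_opNorm _)
  intro s hs
  have hM0 : 0 ≤ M := (norm_nonneg _).trans (hM s hs)
  have hd : ∀ x, HasDerivAt (fun s => M + ∫ σ in (0 : ℝ)..s, ‖G.B‖ * ‖W σ‖) (‖G.B‖ * ‖W x‖) x :=
    fun x => (hn.integral_hasStrictDerivAt 0 x).hasDerivAt.const_add M
  have h2 := norm_le_gronwallBound_of_norm_deriv_right_le (δ := M) (K := ‖G.B‖) (ε := 0) (a := 0)
    (b := N) (f := fun s => M + ∫ σ in (0 : ℝ)..s, ‖G.B‖ * ‖W σ‖)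
    (f' := fun x => ‖G.B‖ * ‖W x‖) (fun x _ => (hd x).continuousAt.continuousWithinAt)
    (fun x _ => (hd x).hasDerivWithinAt) (by simp [abs_of_nonneg hM0]) (fun x hx => by
      rw [add_zero, Real.norm_of_nonneg (by positivity)]
      exact mul_le_mul_of_nonneg_left ((h1 x ⟨hx.1, hx.2.le⟩).trans (le_abs_self _))
        (norm_nonneg _)) s hs
  rw [gronwallBound_ε0, sub_zero] at h2
  refine (h1 s hs).trans ((le_abs_self _).trans (h2.trans ?_))
  rw [mul_comm]
  exact mul_le_mul_of_nonneg_right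
    (Real.exp_le_exp.2 (mul_le_mul_of_nonneg_left hs.2 (norm_nonneg _))) hM0

theorem SG.Mild.add {y y' : Y} {b b' W W' : ℝ → Y} (h : G.Mild y b W) (h' : G.Mild y' b' W') :
    G.Mild (y + y') (fun s => b s + b' s) fun s => W s + W' s := by
  refine ⟨h.cb.add h'.cb, h.cW.add h'.cW, fun s hs => ?_⟩
  have e : ∀ σ, G.S (s - σ) (b σ + b' σ + G.B (W σ + W' σ)) =
      G.S (s - σ) (b σ + G.B (W σ)) + G.S (s - σ) (b' σ + G.B (W' σ)) := fun σ => by
    rw [← map_add, map_add G.B]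
    congr 1
    abel
  simp only [e]
  rw [intervalIntegral.integral_add (G.a1_int h.cf _ _ _)
    (G.a1_int h'.cf _ _ _), map_add]
  nth_rewrite 1 [h.eq s hs, h'.eq s hs]
  abel

/-- a real linear map commuting with `S` and `B` maps mild solutions to mild solutions -/
theorem SG.Mild.map {y : Y} {b W : ℝ → Y} (h : G.Mild y b W) (J : Y →L[ℝ] Y)
    (hS : ∀ s y, J (G.S s y) = G.S s (J y)) (hB : ∀ y, J (G.B y) = G.B (J y)) :
    G.Mild (J y) (fun s => J (b s)) fun s => J (W s) := by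
  refine ⟨J.continuous.comp h.cb, J.continuous.comp h.cW, fun s hs => ?_⟩
  nth_rewrite 1 [h.eq s hs]
  rw [map_add, hS, ← J.intervalIntegral_comp_comm
    (G.a1_int h.cf _ _ _)]
  simp only [hS, map_add J, hB]

theorem SG.Mild.smul {y : Y} {b W : ℝ → Y} (h : G.Mild y b W) (c : ℂ) :
    G.Mild (c • y) (fun s => c • b s) fun s => c • W s :=
  h.map ((c • ContinuousLinearMap.id ℂ Y).restrictScalars ℝ) (fun s y => by simp) fun y => by simp

theorem SG.Mild.sub {y y' : Y} {b b' W W' : ℝ → Y} (h : G.Mild y b W) (h' : G.Mild y' b' W') :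
    G.Mild (y - y') (fun s => b s - b' s) fun s => W s - W' s := by
  simpa only [neg_one_smul, ← sub_eq_add_neg] using h.add (h'.smul (-1))

theorem SG.Mild.uniq {y : Y} {b W W' : ℝ → Y} (h : G.Mild y b W) (h' : G.Mild y b W') {s : ℝ}
    (hs : 0 ≤ s) : W s = W' s := by
  have h1 := (h.sub h').est (N := s) (M := 0) (fun t _ => by simp) s ⟨hs, le_rfl⟩
  rwa [mul_zero, norm_le_zero_iff, sub_eq_zero] at h1

theorem SG.Mild.zero {y : Y} {b W : ℝ → Y} (h : G.Mild y b W) : W 0 = y := by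
  rw [h.eq 0 le_rfl, G.zero, intervalIntegral.integral_same, add_zero]

theorem SG.Mild.shift {y : Y} {b W : ℝ → Y} (h : G.Mild y b W) {t : ℝ} (ht : 0 ≤ t) :
    G.Mild (W t) (fun s => b (s + t)) fun s => W (s + t) := by
  have hc : Continuous fun s : ℝ => s + t := continuous_id.add continuous_const
  have hf := h.cf
  refine ⟨h.cb.comp hc, h.cW.comp hc, fun s hs => ?_⟩
  have e1 := intervalIntegral.integral_comp_add_right (a := 0) (b := s)
    (fun σ => G.S (s + t - σ) (b σ + G.B (W σ))) t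
  simp only [add_sub_add_right_eq_sub, zero_add] at e1
  rw [e1, h.eq _ (add_nonneg hs ht), h.eq t ht, map_add, ← G.add,
    ← (G.S s).intervalIntegral_comp_comm (G.a1_int hf _ _ _),
    ← intervalIntegral.integral_add_adjacent_intervals (G.a1_int hf (s + t) 0 t)
      (G.a1_int hf (s + t) t (s + t)), add_assoc]
  simp only [← G.add, add_sub_assoc]

/-- simple form of the estimate -/
theorem SG.Mild.est' {y : Y} {b W : ℝ → Y} (h : G.Mild y b W) {N M : ℝ}
    (hM : ∀ s ∈ Icc 0 N, ‖b s‖ ≤ M) :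
    ∀ s ∈ Icc 0 N, ‖W s‖ ≤ Real.exp (‖G.B‖ * N) * (‖y‖ + N * M) := by
  refine h.est fun s hs => (norm_add_le _ _).trans (add_le_add (G.le s hs.1 y) ?_)
  have hM0 : 0 ≤ M := (norm_nonneg _).trans (hM s hs)
  have h1 := intervalIntegral.norm_integral_le_of_norm_le_const (a := 0) (b := s) (C := M)
    (f := fun σ => G.S (s - σ) (b σ)) fun σ hσ => by
      rw [uIoc_of_le hs.1] at hσ
      exact (G.le _ (sub_nonneg.2 hσ.2) _).trans (hM σ ⟨hσ.1.le, hσ.2.trans hs.2⟩)
  rw [sub_zero, abs_of_nonneg hs.1, mul_comm] at h1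
  exact h1.trans (mul_le_mul_of_nonneg_right hs.2 hM0)

end Vale.Agent.P139
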