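import Vale.Agent.P139.A1.Vol1

/-! P139 part A1: existence of mild solutions and continuous dependence on parameters. -/

noncomputable section

open MeasureTheory Filter Topology Set

set_option linter.unusedSectionVars false

namespace Vale.Agent.P139

variable {Y : Type} [NormedAddCommGroup Y] [NormedSpace ℂ Y] [NormedSpace ℝ Y]
  [IsScalarTower ℝ ℂ Y] [CompleteSpace Y] (G : SG Y)

theorem SG.a1_cont_int {P : Type} [TopologicalSpace P] {f : P → ℝ → Y} {t : P → ℝ}
    (hf : Continuous fun p : P × ℝ => f p.1 p.2) (ht : Continuous t) :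
    Continuous fun p => ∫ σ in (0 : ℝ)..t p, G.S (t p - σ) (f p σ) :=
  intervalIntegral.continuous_parametric_intervalIntegral_of_continuous
    (f := fun p σ => G.S (t p - σ) (f p σ))
    (G.a1_cont ((ht.comp continuous_fst).sub continuous_snd) hf) ht

theorem SG.a1_key {v : ℝ → Y} {c t : ℝ} (hv : ∀ σ, ‖v σ‖ ≤ c) (ht : 0 ≤ t) :
    ‖Real.exp (-((2 * ‖G.B‖ + 1) * t)) • ∫ σ in (0 : ℝ)..t,
      G.S (t - σ) (G.B (Real.exp ((2 * ‖G.B‖ + 1) * max σ 0) • v σ))‖ ≤ 1 / 2 * c := by
  set K := 2 * ‖G.B‖ + 1 with hK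
  have hK0 : 0 < K := by positivity
  have hc : 0 ≤ c := (norm_nonneg _).trans (hv 0)
  have hd : ∀ x, HasDerivAt (fun σ => c / 2 * Real.exp (K * σ)) (c / 2 * (Real.exp (K * x) * K)) x :=
    fun x => by simpa using ((hasDerivAt_id x).const_mul K).exp.const_mul (c / 2)
  have hi : IntervalIntegrable (fun x => c / 2 * (Real.exp (K * x) * K)) volume 0 t :=
    Continuous.intervalIntegrable (by fun_prop) _ _
  have h1 := intervalIntegral.norm_integral_le_of_norm_le (μ := volume) ht
    (f := fun σ => G.S (t - σ) (G.B (Real.exp (K * max σ 0) • v σ))) (.of_forall fun σ hσ => by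
      refine (G.le _ (sub_nonneg.2 hσ.2) _).trans ((G.B.le_opNorm _).trans ?_)
      rw [norm_smul, max_eq_left hσ.1.le, Real.norm_of_nonneg (Real.exp_pos _).le]
      have h2 := mul_le_mul_of_nonneg_left (hv σ) (Real.exp_pos (K * σ)).le
      have h3 := mul_le_mul_of_nonneg_left h2 (norm_nonneg G.B)
      have h4 : 0 ≤ Real.exp (K * σ) * c := by positivity
      show _ ≤ c / 2 * (Real.exp (K * σ) * K)
      rw [hK] at *
      nlinarith) hi
  rw [intervalIntegral.integral_eq_sub_of_hasDerivAt (fun x _ => hd x) hi] at h1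
  rw [norm_smul, Real.norm_of_nonneg (Real.exp_pos _).le]
  refine (mul_le_mul_of_nonneg_left h1 (Real.exp_pos _).le).trans ?_
  have h5 : Real.exp (-(K * t)) * Real.exp (K * t) = 1 := by rw [← Real.exp_add]; simp
  have h6 : 0 ≤ Real.exp (-(K * t)) * (c / 2 * Real.exp (K * 0)) := by positivity
  nlinarith

theorem SG.a1_ex (y : Y) {b : ℝ → Y} (hb : Continuous b) {M : ℝ} (hM : ∀ s, 0 ≤ s → ‖b s‖ ≤ M) :
    ∃ W, G.Mild y b W ∧ ∀ s, W s = W (max s 0) := by
  set K := 2 * ‖G.B‖ + 1 with hK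
  have hK1 : 1 ≤ K := le_add_of_nonneg_left (by positivity)
  have hm : Continuous fun s : ℝ => max s 0 := continuous_id.max continuous_const
  have hM0 : 0 ≤ M := (norm_nonneg _).trans (hM 0 le_rfl)
  have hE : ∀ w : BoundedContinuousFunction ℝ Y,
      Continuous fun σ => G.B (Real.exp (K * max σ 0) • w σ) := fun w => by fun_prop
  let F : ℝ → Y := fun t => G.S t y + ∫ σ in (0 : ℝ)..t, G.S (t - σ) (b σ)
  let V : BoundedContinuousFunction ℝ Y → ℝ → Y := fun w t =>
    ∫ σ in (0 : ℝ)..t, G.S (t - σ) (G.B (Real.exp (K * max σ 0) • w σ))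
  have hF : Continuous F := (G.a1_cont continuous_id continuous_const).add
    (G.a1_cont_int (f := fun _ σ => b σ) (hb.comp continuous_snd) continuous_id)
  have hV : ∀ w, Continuous (V w) := fun w =>
    G.a1_cont_int (f := fun _ σ => G.B (Real.exp (K * max σ 0) • w σ))
      ((hE w).comp continuous_snd) continuous_id
  have hFle : ∀ t, 0 ≤ t → ‖Real.exp (-(K * t)) • F t‖ ≤ ‖y‖ + M := fun t ht => by
    have h1 := intervalIntegral.norm_integral_le_of_norm_le_const (a := 0) (b := t) (C := M)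
      (f := fun σ => G.S (t - σ) (b σ)) fun σ hσ => by
        rw [uIoc_of_le ht] at hσ
        exact (G.le _ (sub_nonneg.2 hσ.2) _).trans (hM σ hσ.1.le)
    rw [sub_zero, abs_of_nonneg ht] at h1
    have h2 : ‖F t‖ ≤ ‖y‖ + M * t := (norm_add_le _ _).trans (add_le_add (G.le t ht y) h1)
    have h3 : 1 + t ≤ Real.exp (K * t) := by
      have := Real.add_one_le_exp (K * t)
      nlinarith
    rw [norm_smul, Real.norm_of_nonneg (Real.exp_pos _).le, Real.exp_neg,
      inv_mul_le_iff₀ (Real.exp_pos _)]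
    have h4 := mul_le_mul_of_nonneg_right h3 (add_nonneg (norm_nonneg y) hM0)
    nlinarith [mul_nonneg ht (norm_nonneg y)]
  let Φ : BoundedContinuousFunction ℝ Y → BoundedContinuousFunction ℝ Y := fun w =>
    BoundedContinuousFunction.ofNormedAddCommGroup
      (fun s => Real.exp (-(K * max s 0)) • (F (max s 0) + V w (max s 0)))
      (Continuous.smul (by fun_prop) ((hF.comp hm).add ((hV w).comp hm))) (‖y‖ + M + 1 / 2 * ‖w‖)
      fun s => by
        rw [smul_add]
        exact (norm_add_le _ _).trans (add_le_add (hFle _ (le_max_right _ _))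
          (G.a1_key w.norm_coe_le_norm (le_max_right _ _)))
  have hΦ : ∀ w s, Φ w s = Real.exp (-(K * max s 0)) • (F (max s 0) + V w (max s 0)) :=
    fun w s => rfl
  have hc : ContractingWith (1 / 2) Φ := by
    refine ⟨by norm_num, LipschitzWith.of_dist_le_mul fun w w' => ?_⟩
    refine (BoundedContinuousFunction.dist_le (by positivity)).2 fun s => ?_
    rw [dist_eq_norm, hΦ, hΦ, ← smul_sub, add_sub_add_left_eq_sub,
      ← intervalIntegral.integral_sub (G.a1_int (hE w) _ _ _) (G.a1_int (hE w') _ _ _)]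
    simp only [← map_sub, ← smul_sub]
    push_cast
    exact G.a1_key (v := fun σ => w σ - w' σ)
      (fun σ => dist_eq_norm (w σ) (w' σ) ▸ w.dist_coe_le_dist σ) (le_max_right _ _)
  obtain ⟨w, hw⟩ : ∃ w, Φ w = w := ⟨_, hc.fixedPoint_isFixedPt⟩
  have h1 : ∀ s, Real.exp (K * max s 0) • w s = F (max s 0) + V w (max s 0) := fun s => by
    conv_lhs => rw [← hw, hΦ, smul_smul, ← Real.exp_add, add_neg_cancel, Real.exp_zero, one_smul]
  refine ⟨fun s => Real.exp (K * max s 0) • w s, ⟨hb, by fun_prop, fun s hs => ?_⟩, fun s => ?_⟩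
  · rw [h1, max_eq_left hs, add_assoc,
      ← intervalIntegral.integral_add (G.a1_int hb _ _ _) (G.a1_int (hE w) _ _ _)]
    simp only [map_add]
  · beta_reduce
    rw [h1, h1, max_eq_left (le_max_right s 0)]

theorem SG.a1_ex_param {P : Type} [TopologicalSpace P] {b : P → ℝ → Y}
    (hb : Continuous fun p : P × ℝ => b p.1 p.2) (hM : ∀ p, ∃ M, ∀ s, 0 ≤ s → ‖b p s‖ ≤ M) :
    ∃ W : P → ℝ → Y, (Continuous fun p : P × ℝ => W p.1 p.2) ∧
      ∀ p, G.Mild 0 (b p) (W p) ∧ ∀ s, W p s = W p (max s 0) := by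
  have h1 : ∀ p, ∃ W, G.Mild 0 (b p) W ∧ ∀ s, W s = W (max s 0) := fun p =>
    G.a1_ex 0 (hb.comp (Continuous.prodMk_right p)) (hM p).choose_spec
  choose W hW using h1
  refine ⟨W, continuous_iff_continuousAt.2 fun q => ?_, hW⟩
  have h2 : Tendsto (fun p : P × ℝ => W p.1 p.2 - W q.1 p.2) (𝓝 q) (𝓝 0) := by
    rw [NormedAddGroup.tendsto_nhds_zero]
    intro ε hε
    set N := |q.2| + 1 with hN
    have hN0 : 0 < N := by positivity
    obtain ⟨δ, hδ, hδ'⟩ : ∃ δ > 0, Real.exp (‖G.B‖ * N) * (N * δ) < ε := by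
      refine ⟨ε / (2 * (Real.exp (‖G.B‖ * N) * N)), by positivity, ?_⟩
      have : Real.exp (‖G.B‖ * N) * (N * (ε / (2 * (Real.exp (‖G.B‖ * N) * N)))) = ε / 2 := by
        field_simp
      linarith
    have h3 : ∀ᶠ p in 𝓝 q.1, ∀ s ∈ Icc 0 N, ‖b p s - b q.1 s‖ < δ := by
      refine isCompact_Icc.eventually_forall_of_forall_eventually fun s _ => ?_
      have h4 : Continuous fun z : P × ℝ => ‖b z.1 z.2 - b q.1 z.2‖ :=
        (hb.sub ((hW q.1).1.cb.comp continuous_snd)).norm
      exact h4.continuousAt.eventually_lt continuousAt_const (by simpa using hδ)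
    have h5 : ∀ᶠ p : P × ℝ in 𝓝 q, p.2 < N :=
      continuousAt_snd.eventually_lt continuousAt_const (by linarith [le_abs_self q.2])
    filter_upwards [continuousAt_fst.eventually h3, h5] with p h6 h7
    have h8 := ((hW p.1).1.sub (hW q.1).1).est' (fun s hs => (h6 s hs).le) (max p.2 0)
      ⟨le_max_right _ _, max_le h7.le hN0.le⟩
    rw [sub_zero, norm_zero, zero_add] at h8
    rw [(hW p.1).2, (hW q.1).2]
    exact h8.trans_lt hδ'
  have h9 := h2.add (((hW q.1).1.cW.comp continuous_snd).tendsto q)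
  simpa only [ContinuousAt, Function.comp_def, sub_add_cancel, zero_add] using h9

end Vale.Agent.P139
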